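import Vale.Agent.P345.EC2

namespace Vale.Agent.P345

lemma seq_lemma (h : ℤ → ℝ) (β η : ℝ) (h0 : h 0 = 0) (h1 : h 1 = η) (h1' : h (-1) = η)
    (hη : 0 ≤ η)
    (hl : ∀ n, 1 ≤ (h (n + 1) - h n) - (h n - h (n - 1)))
    (hu : ∀ n, (h (n + 1) - h n) - (h n - h (n - 1)) ≤ β) (τ : ℝ) (hτ : 0 ≤ τ) :
    (∃! n : ℤ, h n - h (n - 1) ≤ τ ∧ τ < h (n + 1) - h n) ∧
    ∀ n : ℤ, h n - h (n - 1) ≤ τ → τ < h (n + 1) - h n →
      τ < η + β * n ∧ (n : ℝ) * (n - 1) / 2 ≤ h n ∧ h n ≤ τ * (τ + 1) := by
  set d : ℤ → ℝ := fun n => h (n + 1) - h n with hd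
  have hd' : ∀ n, h n - h (n - 1) = d (n - 1) := fun n => by simp [hd]
  have hmono : StrictMono d := strictMono_int_of_lt_succ fun n => by
    have := hl (n + 1)
    simp only [hd, add_sub_cancel_right] at this ⊢
    linarith
  have hlow : ∀ k : ℕ, η + k ≤ d k := by
    intro k
    induction k with
    | zero => simp [hd, h0, h1]
    | succ k ih =>
      have := hl (k + 1)
      simp only [hd, add_sub_cancel_right] at this ih ⊢
      push_cast
      linarith
  have hup : ∀ k : ℕ, d k ≤ η + β * k := by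
    intro k
    induction k with
    | zero => simp [hd, h0, h1]
    | succ k ih =>
      have := hu (k + 1)
      simp only [hd, add_sub_cancel_right] at this ih ⊢
      push_cast
      linarith
  have hm1 : d (-1) ≤ 0 := by simp [hd, h0, h1', hη]
  constructor
  · have hex : ∃ k : ℕ, τ < d k := by
      obtain ⟨k, hk⟩ := exists_nat_gt τ
      exact ⟨k, by linarith [hlow k]⟩
    classical
    refine ⟨Nat.find hex, ⟨?_, Nat.find_spec hex⟩, ?_⟩
    · rw [hd']
      rcases Nat.eq_zero_or_pos (Nat.find hex) with h2 | h2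
      · rw [h2]; simpa using hm1.trans hτ
      · have := Nat.find_min hex (m := Nat.find hex - 1) (by omega)
        rw [Nat.cast_sub h2] at this
        exact not_lt.mp this
    · rintro n ⟨a1, a2⟩
      rw [hd'] at a1
      have b2 := Nat.find_spec hex
      have b1 : d (Nat.find hex - 1) ≤ τ := by
        rcases Nat.eq_zero_or_pos (Nat.find hex) with h2 | h2
        · rw [h2]; simpa using hm1.trans hτ
        · have := Nat.find_min hex (m := Nat.find hex - 1) (by omega)
          rw [Nat.cast_sub h2] at this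
          exact not_lt.mp this
      have c1 := hmono.lt_iff_lt.mp (a1.trans_lt b2)
      have c2 := hmono.lt_iff_lt.mp (b1.trans_lt a2)
      omega
  · intro n a1 a2
    rw [hd'] at a1
    have hn : 0 ≤ n := by
      have := hmono.lt_iff_lt.mp ((hm1.trans hτ).trans_lt a2)
      omega
    obtain ⟨k, rfl⟩ := Int.eq_ofNat_of_zero_le hn
    have s1 : ∀ j : ℕ, (j : ℝ) * (j - 1) / 2 ≤ h j := by
      intro j
      induction j with
      | zero => simp [h0]
      | succ j ih =>
        have := hlow j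
        simp only [hd] at this
        push_cast
        nlinarith
    have s2 : ∀ j : ℕ, j ≤ k → h j ≤ j * τ := by
      intro j
      induction j with
      | zero => simp [h0]
      | succ j ih =>
        intro hj
        have b1 := ih (by omega)
        have b2 : d j ≤ d (k - 1) := hmono.monotone (by omega)
        simp only [hd] at b2 a1
        push_cast
        linarith
    refine ⟨a2.trans_le (by simpa [hd] using hup k), by simpa using s1 k, ?_⟩
    have s3 : (k : ℝ) ≤ τ + 1 := by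
      rcases Nat.eq_zero_or_pos k with h2 | h2
      · rw [h2]; simp; linarith
      · have := hlow (k - 1)
        rw [Nat.cast_sub h2, Nat.cast_sub h2] at this
        push_cast at this
        linarith
    have := s2 k le_rfl
    nlinarith

/-- the window condition that pins down one multiple of `G` -/
def cond (G : Pt) (t : ℕ) (Q : Pt) : Prop := HH Q ≤ t * HH (Q + -G) ∧ t * HH Q < HH (Q + G)

lemma cond_iff (G : Pt) {t : ℕ} (ht : 0 < t) (n : ℤ) : cond G t (n • G) ↔
    hh (n • G) - hh ((n - 1) • G) ≤ Real.log t ∧ Real.log t < hh ((n + 1) • G) - hh (n • G) := by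
  have e1 : (n - 1) • G = n • G + -G := by rw [sub_zsmul, one_zsmul]
  have e2 : (n + 1) • G = n • G + G := by rw [add_zsmul, one_zsmul]
  rw [e1, e2]
  unfold cond hh
  have p : ∀ P : Pt, (0 : ℝ) < HH P := fun P => by exact_mod_cast HH_pos P
  have pt : (0 : ℝ) < t := by exact_mod_cast ht
  rw [sub_le_iff_le_add, lt_sub_iff_add_lt, ← Real.log_mul pt.ne' (p _).ne',
    ← Real.log_mul pt.ne' (p _).ne', Real.log_le_log_iff (p _) (mul_pos pt (p _)),
    Real.log_lt_log_iff (mul_pos pt (p _)) (p _)]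
  exact_mod_cast Iff.rfl

lemma ev_bound (e : ℕ) : ∃ a₀ : ℕ, ∀ a : ℕ, a₀ ≤ a → 4 ≤ a ∧ 1 ≤ Real.log a ∧
    (e * Real.log a) * (e * Real.log a + 1) < (a - 2 : ℕ) * Real.log 2 := by
  have h1 := (Real.isLittleO_pow_log_id_atTop (n := 2)).bound
    (c := 1 / (8 * ((e : ℝ) ^ 2 + e + 1))) (by positivity)
  obtain ⟨A, hA⟩ := Filter.eventually_atTop.mp h1
  refine ⟨max 4 ⌈A⌉₊, fun a ha => ?_⟩
  have a4 : 4 ≤ a := le_trans (le_max_left _ _) ha
  have a4' : (4 : ℝ) ≤ a := by exact_mod_cast a4
  have aA : A ≤ a := (Nat.le_ceil A).trans (by exact_mod_cast le_trans (le_max_right _ _) ha)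
  have hL : 1 ≤ Real.log a := by
    rw [Real.le_log_iff_exp_le (by linarith)]
    linarith [Real.exp_one_lt_d9]
  refine ⟨a4, hL, ?_⟩
  have h2 := hA a aA
  simp only [Real.norm_eq_abs, id] at h2
  rw [abs_of_nonneg (by positivity), abs_of_nonneg (by positivity), div_mul_eq_mul_div,
    le_div_iff₀ (by positivity)] at h2
  rw [Nat.cast_sub (by omega)]
  have h3 := Real.log_two_gt_d9
  have he : (0 : ℝ) ≤ e := Nat.cast_nonneg e
  set L := Real.log a
  have h4 : e * L * (e * L + 1) ≤ L ^ 2 * (e ^ 2 + e + 1) := by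
    have : e * L ≤ e * L ^ 2 := mul_le_mul_of_nonneg_left (by nlinarith) he
    nlinarith
  push_cast
  nlinarith

theorem growth : ∃ (m : ℕ) (G : Pt) (e a₀ : ℕ), {T : Pt | m • T = 0}.Finite ∧ 4 ≤ a₀ ∧
    ∀ a : ℕ, a₀ ≤ a → (∃! Q : Pt, (∃ R : Pt, m • R = Q) ∧ cond G (a ^ e) Q) ∧
      ∀ R : Pt, cond G (a ^ e) (m • R) →
        (∀ k : ℕ, 2 ^ k ≤ a → (2 * a) ^ k ≤ HH (m • R)) ∧ HH (m • R) < 2 ^ (a - 2) := by
  obtain ⟨C, hC⟩ := parallelogram
  obtain ⟨m, G, hG, h1, h2, h3⟩ := structure_thm (|C| + 1)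
  have hC' := le_abs_self C
  have hC0 := abs_nonneg C
  set η := hh G with hη
  set β := 2 * η + |C| with hβ
  set e := ⌈4 * β + η⌉₊ with he
  obtain ⟨a₀, ha₀⟩ := ev_bound e
  refine ⟨m, G, e, max 4 a₀, h3, le_max_left _ _, fun a ha => ?_⟩
  obtain ⟨a4, hL, hup⟩ := ha₀ a (le_trans (le_max_right _ _) ha)
  have hpar : ∀ n : ℤ, |hh ((n + 1) • G) + hh ((n - 1) • G) - 2 * (hh (n • G) + η)| ≤ C := by
    intro n
    have := hC (n • G) G
    rwa [add_zsmul, sub_zsmul, one_zsmul, ← sub_eq_add_neg]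
  have ht : 0 < a ^ e := by positivity
  have hlog : Real.log ((a ^ e : ℕ) : ℝ) = e * Real.log a := by
    rw [Nat.cast_pow, Real.log_pow]
  obtain ⟨s1, s2⟩ := seq_lemma (fun n => hh (n • G)) β η (by simp [hh_zero]) (by simp [hη])
    (by simp [hη, hh_neg]) (hh_nonneg G)
    (fun n => by have := abs_le.mp (hpar n); linarith [this.1])
    (fun n => by have := abs_le.mp (hpar n); linarith [this.2])
    (Real.log ((a ^ e : ℕ) : ℝ)) (Real.log_natCast_nonneg _)
  constructor
  · obtain ⟨n, hn, hn'⟩ := s1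
    refine ⟨n • G, ⟨h2 n, (cond_iff G ht n).mpr hn⟩, ?_⟩
    rintro Q ⟨⟨R, rfl⟩, hQ⟩
    obtain ⟨n', hn2⟩ := h1 R
    rw [hn2] at hQ ⊢
    rw [hn' n' ((cond_iff G ht n').mp hQ)]
  · intro R hR
    obtain ⟨n, hn⟩ := h1 R
    rw [hn] at hR ⊢
    obtain ⟨c1, c2⟩ := (cond_iff G ht n).mp hR
    obtain ⟨t1, t2, t3⟩ := s2 n c1 c2
    rw [hlog] at t1 t3
    set L := Real.log a with hLdef
    have p : (0 : ℝ) < HH (n • G) := by exact_mod_cast HH_pos _
    have a4' : (4 : ℝ) ≤ a := by exact_mod_cast a4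
    have h2' := Real.log_two_gt_d9
    constructor
    · intro k hk
      have he' : 4 * β + η ≤ e := Nat.le_ceil _
      have hβ0 : 0 < β := by linarith
      have hn4 : 4 * L ≤ n := by
        have b1 : (4 * β + η) * L ≤ e * L := mul_le_mul_of_nonneg_right he' (by linarith)
        have b2 : η ≤ η * L := by nlinarith
        have b3 : β * (4 * L) ≤ β * n := by nlinarith
        exact le_of_mul_le_mul_left b3 hβ0
      have hk' : (k : ℝ) * Real.log 2 ≤ L := by
        rw [← Real.log_pow]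
        exact Real.log_le_log (by positivity) (by exact_mod_cast hk)
      have hk0 : (0 : ℝ) ≤ k := Nat.cast_nonneg k
      have hk2 : (k : ℝ) ≤ 2 * L := by nlinarith
      have hl2 : Real.log (2 * a) ≤ 2 * L := by
        rw [Real.log_mul (by norm_num) (by linarith)]
        have : Real.log 2 ≤ L := Real.log_le_log (by norm_num) (by linarith)
        linarith
      have hl0 : 0 ≤ Real.log (2 * a) := Real.log_nonneg (by linarith)
      have : Real.log (((2 * a) ^ k : ℕ) : ℝ) ≤ Real.log (HH (n • G)) := by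
        push_cast
        rw [Real.log_pow]
        have b1 : (k : ℝ) * Real.log (2 * a) ≤ (2 * L) * (2 * L) :=
          mul_le_mul hk2 hl2 hl0 (by linarith)
        have b2 : (4 * L) * (3 * L) ≤ (n : ℝ) * (n - 1) :=
          mul_le_mul hn4 (by linarith) (by linarith) (by linarith)
        unfold hh at t2
        nlinarith
      rw [Real.log_le_log_iff (by positivity) p] at this
      exact_mod_cast this
    · have : Real.log (HH (n • G)) < Real.log ((2 ^ (a - 2) : ℕ) : ℝ) := by
        rw [Nat.cast_pow, Real.log_pow]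
        exact t3.trans_lt hup
      rw [Real.log_lt_log_iff p (by positivity)] at this
      exact_mod_cast this

end Vale.Agent.P345
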