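import Vale.Agent.P345.SFQ
import Vale.Agent.P345.Growth

namespace Vale.Agent.P345

variable {α : Type}

/-- point valued single-fold functions -/
def SFE (φ : (α → ℕ) → Pt) : Prop :=
  SFD (fun v => φ v = 0) ∧ SFQ (fun v => PX (φ v)) ∧ SFQ (fun v => PY (φ v))

lemma SFE.congr {φ ψ : (α → ℕ) → Pt} (h : SFE φ) (H : ∀ v, ψ v = φ v) : SFE ψ := by
  rwa [show ψ = φ from funext H]

lemma SFE.const (P : Pt) : SFE (fun _ : α → ℕ => P) := ⟨SFD.const _, SFQ.const _, SFQ.const _⟩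

lemma SFQ.slp {a b c d : (α → ℕ) → ℚ} (ha : SFQ a) (hb : SFQ b) (hc : SFQ c) (hd : SFQ d) :
    SFQ (fun v => slp (a v) (b v) (c v) (d v)) :=
  SFQ.ite (SFD.qeq ha hc) ((((SFQ.const 3).mul (ha.npow 2)).sub (SFQ.const 2)).div
    ((SFQ.const 2).mul hb)) ((hb.sub hd).div (ha.sub hc))

lemma SFE.add {φ ψ : (α → ℕ) → Pt} (h : SFE φ) (h' : SFE ψ) : SFE (fun v => φ v + ψ v) := by
  classical
  obtain ⟨z1, x1, y1⟩ := h
  obtain ⟨z2, x2, y2⟩ := h'
  have hc := (SFD.qeq x1 x2).and (SFD.qeq y1 y2.neg)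
  have hs := SFQ.slp x1 y1 x2 y2
  have hx : SFQ (fun v => PX (φ v + ψ v)) := by
    refine (SFQ.ite z1 x2 (SFQ.ite z2 x1 (SFQ.ite hc (SFQ.const 0)
      (((hs.npow 2).sub x1).sub x2)))).congr fun v => ?_
    split_ifs with a b c
    · rw [a, zero_add]
    · rw [b, add_zero]
    · rw [add_eq_zero' a b c]; rfl
    · exact (add_formula a b c).2.1
  refine ⟨?_, hx, ?_⟩
  · refine ((z1.and z2).or (z1.not.and (z2.not.and hc))).congr fun v => ?_
    by_cases a : φ v = 0
    · simp [a]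
    by_cases b : ψ v = 0
    · simp [a, b]
    by_cases c : PX (φ v) = PX (ψ v) ∧ PY (φ v) = -PY (ψ v)
    · simp [a, b, c, add_eq_zero' a b c]
    · simp [a, b, c, (add_formula a b c).1]
  · refine (SFQ.ite z1 y2 (SFQ.ite z2 y1 (SFQ.ite hc (SFQ.const 0)
      ((hs.mul (hx.sub x1)).add y1).neg))).congr fun v => ?_
    beta_reduce
    split_ifs with a b c
    · rw [a, zero_add]
    · rw [b, add_zero]
    · rw [add_eq_zero' a b c]; rfl
    · exact (add_formula a b c).2.2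

lemma SFE.nsmul {φ : (α → ℕ) → Pt} (h : SFE φ) (m : ℕ) : SFE (fun v => m • φ v) := by
  induction m with
  | zero => exact (SFE.const 0).congr fun _ => zero_nsmul _
  | succ m ih => exact (ih.add h).congr fun _ => succ_nsmul _ _

lemma SFE.HH {φ : (α → ℕ) → Pt} (h : SFE φ) : SFF (fun v => HH (φ v)) :=
  h.2.1.num.natAbs.max h.2.1.den

open Classical in
/-- coordinates of a point as natural numbers -/
noncomputable def code (P : Pt) : Fin 7 → ℕ :=
  ![(PX P).num.toNat, (-(PX P).num).toNat, (PX P).den, (PY P).num.toNat, (-(PY P).num).toNat,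
    (PY P).den, if P = 0 then 0 else 1]

/-- the point with given coordinates -/
noncomputable def mkPt (x y : ℚ) : Pt :=
  if h : y ^ 2 = x ^ 3 - 2 * x then .some x y ((nons_iff x y).mpr h) else 0

/-- decoding -/
noncomputable def dec (w : Fin 7 → ℕ) : Pt :=
  if w 6 = 0 then 0 else mkPt (((w 0 : ℚ) - w 1) / w 2) (((w 3 : ℚ) - w 4) / w 5)

lemma rat_code (q : ℚ) : ((q.num.toNat : ℚ) - (-q.num).toNat) / q.den = q := by
  have : (q.num.toNat : ℤ) - (-q.num).toNat = q.num := Int.toNat_sub_toNat_neg _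
  have h2 : ((q.num.toNat : ℚ) - (-q.num).toNat) = q.num := by exact_mod_cast this
  rw [h2, Rat.num_div_den]

lemma dec_code (P : Pt) : dec (code P) = P := by
  unfold dec code
  by_cases h : P = 0
  · simp [h]
  · simp only [h, Matrix.cons_val, if_false, one_ne_zero, rat_code]
    unfold mkPt
    rw [dif_pos (Pt.eqn h)]
    exact Pt.ext' (WeierstrassCurve.Affine.Point.some_ne_zero _) h rfl rfl

lemma SFE.code {φ : (α → ℕ) → Pt} (h : SFE φ) (i : Fin 7) : SFF (fun v => code (φ v) i) := by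
  classical
  fin_cases i
  · exact h.2.1.num.toNat
  · exact h.2.1.num.neg.toNat
  · exact h.2.1.den
  · exact h.2.2.num.toNat
  · exact h.2.2.num.neg.toNat
  · exact h.2.2.den
  · exact SFF.ite h.1 (SFF.const 0) (SFF.const 1)

lemma SFE.dec {w : Fin 7 → (α → ℕ) → ℕ} (hw : ∀ i, SFF (w i)) :
    SFE (fun v => dec (fun i => w i v)) := by
  have hx := ((SFQ.cast (hw 0)).sub (SFQ.cast (hw 1))).div (SFQ.cast (hw 2))
  have hy := ((SFQ.cast (hw 3)).sub (SFQ.cast (hw 4))).div (SFQ.cast (hw 5))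
  have h6 := SFD.eq (hw 6) (SFF.const 0)
  have he := SFD.qeq (hy.npow 2) ((hx.npow 3).sub ((SFQ.const 2).mul hx))
  refine ⟨(h6.or he.not).congr fun v => ?_,
    (SFQ.ite h6 (SFQ.const 0) (SFQ.ite he hx (SFQ.const 0))).congr fun v => ?_,
    (SFQ.ite h6 (SFQ.const 0) (SFQ.ite he hy (SFQ.const 0))).congr fun v => ?_⟩
  · unfold P345.dec mkPt
    beta_reduce
    split_ifs with a b
    · simp [a]
    · simp [a, b]
    · simp [b]
  · unfold P345.dec mkPt
    beta_reduce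
    split_ifs <;> rfl
  · unfold P345.dec mkPt
    beta_reduce
    split_ifs <;> rfl

/-- an injective numbering of the points -/
noncomputable def iota (P : Pt) : ℕ :=
  Nat.pair (Nat.pair (Nat.pair (code P 0) (code P 1)) (Nat.pair (code P 2) (code P 3)))
    (Nat.pair (Nat.pair (code P 4) (code P 5)) (code P 6))

lemma iota_inj {P Q : Pt} (h : iota P = iota Q) : P = Q := by
  unfold iota at h
  simp only [Nat.pair_eq_pair] at h
  have : code P = code Q := by
    funext i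
    fin_cases i
    exacts [h.1.1.1, h.1.1.2, h.1.2.1, h.1.2.2, h.2.1.1, h.2.1.2, h.2.2]
  rw [← dec_code P, this, dec_code]

lemma SFE.iota {φ : (α → ℕ) → Pt} (h : SFE φ) : SFF (fun v => iota (φ v)) :=
  (((h.code 0).pair (h.code 1)).pair ((h.code 2).pair (h.code 3))).pair
    (((h.code 4).pair (h.code 5)).pair (h.code 6))

lemma SFE.cond {φ : (α → ℕ) → Pt} (h : SFE φ) (G : Pt) {t : (α → ℕ) → ℕ} (ht : SFF t) :
    SF (fun v => cond G (t v) (φ v)) :=
  (SF.le h.HH (ht.mul (h.add (SFE.const _)).HH)).and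
    (SF.lt (ht.mul h.HH) (h.add (SFE.const _)).HH)

/-- a single-fold function of quasi-polynomial growth -/
theorem exists_bound : ∃ (Gf : ℕ → ℕ) (a₀ : ℕ), SFF (fun v : Fin 1 → ℕ => Gf (v 0)) ∧ 4 ≤ a₀ ∧
    ∀ a, a₀ ≤ a → (∀ k : ℕ, 2 ^ k ≤ a → (2 * a) ^ k ≤ Gf a) ∧ Gf a < 2 ^ (a - 2) := by
  obtain ⟨m, G, e, a₀, hfin, h4, H⟩ := growth
  have H1 := fun a => (H (max a a₀) (le_max_right _ _)).1
  choose Q hQ hQ' using H1
  refine ⟨fun a => HH (Q a), a₀, ?_, h4, fun a ha => ?_⟩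
  · let K := hfin.toFinset
    have hK : ∀ T, T ∈ K ↔ m • T = 0 := fun T => hfin.mem_toFinset
    let R : (Option (Fin 1) → ℕ) → (Fin 7 → ℕ) → Prop := fun u w =>
      (∀ i, code (dec w) i = w i) ∧ cond G (max (u (some 0)) a₀ ^ e) (m • dec w) ∧
      (∀ T ∈ K, iota (dec w) ≤ iota (dec w + T)) ∧ HH (m • dec w) = u none
    have hd : SFE (fun u : Option (Fin 1) ⊕ Fin 7 → ℕ => dec (fun i => u (.inr i))) :=
      SFE.dec fun i => SFF.proj _
    have hR : SF (fun u : Option (Fin 1) ⊕ Fin 7 → ℕ =>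
        R (fun a => u (.inl a)) (fun b => u (.inr b))) :=
      (SF.forall fun i => SF.eq (hd.code i) (SFF.proj _)).and
        (((hd.nsmul m).cond G (((SFF.proj _).max (SFF.const _)).npow e)).and
        ((SF.forall_finset K fun T => SF.le hd.iota (hd.add (SFE.const T)).iota).and
        (SF.eq (hd.nsmul m).HH (SFF.proj _))))
    refine (SF.exu hR ?_).congr fun u => ?_
    · rintro u w w' ⟨a1, a2, a3, -⟩ ⟨b1, b2, b3, -⟩
      have c1 := (hQ' _ _ ⟨⟨_, rfl⟩, a2⟩).trans (hQ' _ _ ⟨⟨_, rfl⟩, b2⟩).symm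
      have c2 := a3 (dec w' - dec w) ((hK _).mpr (by rw [nsmul_sub, c1, sub_self]))
      have c3 := b3 (dec w - dec w') ((hK _).mpr (by rw [nsmul_sub, c1, sub_self]))
      rw [add_sub_cancel] at c2 c3
      have c4 := iota_inj (le_antisymm c2 c3)
      rw [← funext a1, ← funext b1, c4]
    · beta_reduce
      constructor
      · intro h
        obtain ⟨⟨R₀, hR₀⟩, hc⟩ := hQ (u (some 0))
        obtain ⟨T, hT, hT'⟩ := K.exists_min_image (fun T => iota (R₀ + T))
          ⟨0, (hK _).mpr (nsmul_zero _)⟩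
        have h1 : m • (R₀ + T) = Q (u (some 0)) := by
          rw [nsmul_add, (hK _).mp hT, add_zero, hR₀]
        refine ⟨code (R₀ + T), ?_⟩
        simp only [R, dec_code, h1]
        refine ⟨fun _ => trivial, hc, fun T' hT2 => ?_, h⟩
        rw [add_assoc]
        exact hT' _ ((hK _).mpr (by rw [nsmul_add, (hK _).mp hT, (hK _).mp hT2, add_zero]))
      · rintro ⟨w, -, a2, -, a4⟩
        rw [← hQ' _ _ ⟨⟨_, rfl⟩, a2⟩, a4]
  · obtain ⟨⟨R₀, hR₀⟩, hc⟩ := hQ a
    rw [max_eq_left ha, ← hR₀] at hc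
    beta_reduce
    rw [← hR₀]
    exact (H a ha).2 R₀ hc

end Vale.Agent.P345
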