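import Vale.Agent.P345.HW

namespace Vale.Agent.P345

open Finset

variable {α β γ : Type}

lemma isPoly_mv {f : (γ → ℕ) → ℤ} (hf : IsPoly f) :
    ∃ P : MvPolynomial γ ℤ, ∀ v, MvPolynomial.eval (fun i => (v i : ℤ)) P = f v := by
  induction hf with
  | proj i => exact ⟨MvPolynomial.X i, fun v => by simp⟩
  | const n => exact ⟨MvPolynomial.C n, fun v => by simp⟩
  | sub _ _ h1 h2 =>
    obtain ⟨P, hP⟩ := h1
    obtain ⟨Q, hQ⟩ := h2
    exact ⟨P - Q, fun v => by simp [hP, hQ]⟩
  | mul _ _ h1 h2 =>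
    obtain ⟨P, hP⟩ := h1
    obtain ⟨Q, hQ⟩ := h2
    exact ⟨P * Q, fun v => by simp [hP, hQ]⟩

lemma isPoly_ind {M : ((γ → ℕ) → ℤ) → Prop} (hc : ∀ c, M (fun _ => c))
    (ha : ∀ f g, M f → M g → M (fun v => f v + g v))
    (hX : ∀ f i, M f → M (fun v => f v * v i)) {f : (γ → ℕ) → ℤ} (hf : IsPoly f) : M f := by
  obtain ⟨P, hP⟩ := isPoly_mv hf
  rw [← funext hP]
  clear hP
  induction P using MvPolynomial.induction_on with
  | C a => simpa using hc a
  | add p q h1 h2 => simpa using ha _ _ h1 h2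
  | mul_X p i h => simpa using hX _ i h

lemma SFF.prod {ι : Type} (s : Finset ι) {F : ι → (α → ℕ) → ℕ} (hF : ∀ i, SFF (F i)) :
    SFF (fun v => ∏ i ∈ s, F i v) := by
  classical
  induction s using Finset.induction_on with
  | empty => exact SFF.const 1
  | insert a s ha ih =>
    simp_rw [Finset.prod_insert ha]
    exact (hF a).mul ih

lemma SF.subst' {R : ℕ → (α → ℕ) → Prop}
    (h : SF (fun u : Option α → ℕ => R (u none) (fun a => u (some a)))) {f : (γ → ℕ) → ℕ}
    (hf : SFF f) (g : α → γ) : SF (fun v : γ → ℕ => R (f v) (fun a => v (g a))) := by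
  have h1 := h.reindex (γ := Option γ) (Option.map g)
  have h2 : SF (fun u : Option γ → ℕ => f (fun a => u (some a)) = u none ∧
      R (u none) (fun a => u (some (g a)))) := SF.and hf h1
  exact (SF.ex1 (R := fun x v => f v = x ∧ R x (fun a => v (g a))) h2
    fun _ _ _ a b => a.1.symm.trans b.1).congr fun v => by simp

lemma SFF.subst' {F : ℕ → (α → ℕ) → ℕ}
    (h : SFF (fun u : Option α → ℕ => F (u none) (fun a => u (some a)))) {f : (γ → ℕ) → ℕ}
    (hf : SFF f) (g : α → γ) : SFF (fun v : γ → ℕ => F (f v) (fun a => v (g a))) := by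
  have h1 := SF.reindex h (γ := Option (Option α))
    (fun o => o.elim (some none) (fun o => o.elim none (fun a => some (some a))))
  exact SF.subst' (α := Option α) (R := fun x u => F x (fun a => u (some a)) = u none) h1
    (hf.reindex some) (Option.map g)

section
variable [Fintype β] [DecidableEq β] {t : β → (α → ℕ) → ℕ} {p : (α ⊕ β → ℕ) → ℤ}

lemma box_sum {q : β → (α → ℕ) → ℕ} (ht : ∀ j, SFF (t j)) (hq : ∀ j, SFF (q j))
    (h2 : ∀ j v, 2 ≤ q j v) (hp : IsPoly p) : ∀ r : β → ℕ,
    SFZ (fun v => ∑ x ∈ Fintype.piFinset (fun j => range (t j v)),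
      ((∏ j, x j ^ r j * q j v ^ x j : ℕ) : ℤ) * p (Sum.elim v x)) := by
  refine isPoly_ind (M := fun p => ∀ r : β → ℕ,
    SFZ (fun v => ∑ x ∈ Fintype.piFinset (fun j => range (t j v)),
      ((∏ j, x j ^ r j * q j v ^ x j : ℕ) : ℤ) * p (Sum.elim v x))) ?_ ?_ ?_ hp
  · intro c r
    refine ((SFZ.cast (SFF.prod univ fun j => (hq j).geo (ht j) (h2 j) (r j))).mul
      (SFZ.const c)).congr fun v => ?_
    rw [← sum_mul, ← Nat.cast_sum]
    unfold geo
    rw [prod_univ_sum]
  · intro f g hf hg r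
    refine ((hf r).add (hg r)).congr fun v => ?_
    simp only [mul_add, sum_add_distrib]
  · rintro f (i | i) hf r
    · refine ((hf r).mul (SFZ.cast (SFF.proj i))).congr fun v => ?_
      simp only [sum_mul, Sum.elim_inl, mul_assoc]
    · refine (hf (r + Pi.single i 1)).congr fun v => sum_congr rfl fun x _ => ?_
      have h1 : ∏ j, x j ^ (Pi.single i 1 : β → ℕ) j = x i := by
        rw [prod_eq_single i] <;> simp +contextual
      have h3 : ∏ j, x j ^ (r + Pi.single i 1 : β → ℕ) j * q j v ^ x j =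
          (∏ j, x j ^ r j * q j v ^ x j) * x i := by
        rw [← h1, ← prod_mul_distrib]
        exact prod_congr rfl fun j _ => by rw [Pi.add_apply, pow_add]; ring
      rw [h3]
      simp only [Sum.elim_inr]
      push_cast
      ring

omit [Fintype β] [DecidableEq β] in
lemma box_bound (ht : ∀ j, SFF (t j)) (hp : IsPoly p) : ∃ B : (α → ℕ) → ℕ, SFF B ∧
    ∀ v (x : β → ℕ), (∀ j, x j < t j v) → (p (Sum.elim v x)).natAbs ≤ B v := by
  refine isPoly_ind (M := fun p => ∃ B : (α → ℕ) → ℕ, SFF B ∧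
    ∀ v (x : β → ℕ), (∀ j, x j < t j v) → (p (Sum.elim v x)).natAbs ≤ B v) ?_ ?_ ?_ hp
  · exact fun c => ⟨_, SFF.const c.natAbs, fun _ _ _ => le_rfl⟩
  · rintro f g ⟨B, hB, h⟩ ⟨B', hB', h'⟩
    exact ⟨_, hB.add hB', fun v x hx =>
      (Int.natAbs_add_le _ _).trans (add_le_add (h v x hx) (h' v x hx))⟩
  · rintro f (i | i) ⟨B, hB, h⟩
    · refine ⟨_, hB.mul (SFF.proj i), fun v x hx => ?_⟩
      rw [Int.natAbs_mul]
      exact Nat.mul_le_mul (h v x hx) (by simp)
    · refine ⟨_, hB.mul (ht i), fun v x hx => ?_⟩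
      rw [Int.natAbs_mul]
      exact Nat.mul_le_mul (h v x hx) (by simpa using (hx i).le)

omit [DecidableEq β] in
lemma exists_enum : ∃ e : β → ℕ, ∀ (T : ℕ) (x y : β → ℕ), (∀ j, x j < T) → (∀ j, y j < T) →
    ∑ j, x j * T ^ e j = ∑ j, y j * T ^ e j → x = y := by
  let e := Fintype.equivFin β
  refine ⟨fun j => e j, fun T x y hx hy h => ?_⟩
  have h1 : finFunctionFinEquiv (fun i => (⟨x (e.symm i), hx _⟩ : Fin T)) =
      finFunctionFinEquiv (fun i => (⟨y (e.symm i), hy _⟩ : Fin T)) := by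
    apply Fin.ext
    rw [finFunctionFinEquiv_apply, finFunctionFinEquiv_apply, ← e.sum_comp, ← e.sum_comp]
    simpa using h
  funext j
  simpa using congrFun (finFunctionFinEquiv.injective h1) (e j)

/-- the number of zeros of a polynomial in a box is a single-fold function -/
theorem SFF.count (ht : ∀ j, SFF (t j)) (hp : IsPoly p) :
    SFF (fun v => #{x ∈ Fintype.piFinset (fun j => range (t j v)) | p (Sum.elim v x) = 0}) := by
  obtain ⟨B, hB, hb⟩ := box_bound ht hp
  obtain ⟨e, he⟩ := exists_enum (β := β)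
  let u : (α → ℕ) → ℕ := fun v => B v * B v + 1
  have hu : SFF u := (hB.mul hB).add (SFF.const 1)
  let T : (α → ℕ) → ℕ := fun v => ∑ j, t j v + 1
  have hT : SFF T := (SFF.sum univ ht).add (SFF.const 1)
  let q : β → (α → ℕ) → ℕ := fun j v => (2 ^ (2 * u v)) ^ T v ^ e j
  have hq : ∀ j, SFF (q j) := fun j =>
    ((SFF.const 2).pow ((SFF.const 2).mul hu)).pow (hT.npow _)
  have h2 : ∀ j v, 2 ≤ q j v := fun j v => by
    have : 0 < T v ^ e j := pow_pos (Nat.succ_pos _) _
    exact Nat.one_lt_pow this.ne' (Nat.one_lt_two_pow (by simp [u]))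
  have s1 := box_sum ht hq h2 (IsPoly.const 1) 0
  have s2 := box_sum ht hq h2 (hp.mul hp) 0
  have hU := SFZ.cast ((SFF.const 2).pow hu)
  have hM := ((hU.add (SFZ.const (-1))).mul
    (((hU.add (SFZ.const 1)).mul s1).add s2.neg)).toNat
  refine ((hM.hw.div hu).sub (SFF.prod univ ht)).congr fun v => ?_
  set s := Fintype.piFinset (fun j => range (t j v)) with hs
  have hx : ∀ x ∈ s, ∀ j, x j < t j v := fun x hx j => by simpa using Fintype.mem_piFinset.mp hx j
  let a : (β → ℕ) → ℕ := fun x => (p (Sum.elim v x)).natAbs * (p (Sum.elim v x)).natAbs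
  have ha : ∀ x ∈ s, a x ≤ 2 ^ u v := fun x h =>
    (Nat.mul_le_mul (hb v x (hx x h)) (hb v x (hx x h))).trans
      ((Nat.le_succ _).trans Nat.lt_two_pow_self.le)
  have hxT : ∀ x ∈ s, ∀ j, x j < T v := fun x h j =>
    (hx x h j).trans_le ((single_le_sum (f := fun j => t j v) (fun _ _ => Nat.zero_le _)
      (mem_univ j)).trans (Nat.le_succ _))
  have key := (hw_sum (2 * u v) (fun x => ∑ j, x j * T v ^ e j)
    (fun x => (2 ^ u v - 1) * (2 ^ u v + 1 - a x)) s
    (fun x h y h' hxy => he _ x y (hxT x h) (hxT y h') hxy) fun x h => (hw_delta (ha x h)).1).1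
  have hM' : ((((2 ^ u v : ℕ) : ℤ) + -1) * ((((2 ^ u v : ℕ) : ℤ) + 1) *
      ∑ x ∈ s, ((∏ j, x j ^ (0 : β → ℕ) j * q j v ^ x j : ℕ) : ℤ) * 1 +
      -∑ x ∈ s, ((∏ j, x j ^ (0 : β → ℕ) j * q j v ^ x j : ℕ) : ℤ) *
        (p (Sum.elim v x) * p (Sum.elim v x)))) =
      ((∑ x ∈ s, (2 ^ (2 * u v)) ^ (∑ j, x j * T v ^ e j) *
        ((2 ^ u v - 1) * (2 ^ u v + 1 - a x)) : ℕ) : ℤ) := by
    rw [mul_sum, ← sum_neg_distrib, ← sum_add_distrib, mul_sum, Nat.cast_sum]
    refine sum_congr rfl fun x h => ?_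
    have e1 : ∏ j, x j ^ (0 : β → ℕ) j * q j v ^ x j =
        (2 ^ (2 * u v)) ^ (∑ j, x j * T v ^ e j) := by
      rw [← prod_pow_eq_pow_sum]
      refine prod_congr rfl fun j _ => ?_
      simp only [q, Pi.zero_apply, pow_zero, one_mul]
      rw [← pow_mul, mul_comm (x j)]
    have e2 : (a x : ℤ) = p (Sum.elim v x) * p (Sum.elim v x) := Int.natAbs_mul_self' _
    rw [e1, Nat.cast_mul, Nat.cast_mul, Nat.cast_sub Nat.one_le_two_pow,
      Nat.cast_sub ((ha x h).trans (Nat.le_succ _)), e2]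
    push_cast
    ring
  have hc : #s = ∏ j, t j v := by simp [hs]
  rw [hM', Int.toNat_natCast, key, sum_congr rfl fun x h => (hw_delta (ha x h)).2,
    sum_add_distrib, sum_const, ← sum_filter, sum_const, smul_eq_mul, smul_eq_mul, ← add_mul,
    Nat.mul_div_cancel _ (Nat.succ_pos _), hc, Nat.add_sub_cancel_left]
  congr 1
  exact filter_congr fun x _ => by simp [a]

end

/-- bounded universal quantification -/
theorem SF.ball {R : ℕ → (α → ℕ) → Prop}
    (h : SF (fun u : Option α → ℕ => R (u none) (fun a => u (some a)))) {n : (α → ℕ) → ℕ}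
    (hn : SFF n) : SF (fun v => ∀ i < n v, R i v) := by
  classical
  obtain ⟨β, _, p, hp, H⟩ := h
  have := Fintype.ofFinite β
  let P : (α ⊕ Option β → ℕ) → ℤ := fun u =>
    p (fun o => o.elim (u (.inr none)) (fun a => u (.inl a))) (fun b => u (.inr (some b)))
  let cnt : ℕ → (α → ℕ) → ℕ := fun t v =>
    #{x ∈ Fintype.piFinset (fun j : Option β => range (j.elim (n v) (fun _ => t))) |
      P (Sum.elim v x) = 0}
  let G : ℕ → (α → ℕ) → Prop := fun t v => ∀ i < n v, ∃ w : β → ℕ, (∀ b, w b < t) ∧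
    p (fun o => o.elim i v) w = 0
  have hP : IsPoly (fun u : Option α ⊕ Option β → ℕ =>
      P (Sum.elim (fun a => u (.inl (some a))) (fun b => u (.inr b)))) := by
    have := isPoly_comp hp (Sum.elim (fun o => o.elim (Sum.inr none) (fun a => Sum.inl (some a)))
      (fun b => Sum.inr (some b)) : Option α ⊕ β → Option α ⊕ Option β)
    convert this using 3 with u
    · funext a; cases a <;> rfl
    · rfl
  have hcnt : SFF (fun u : Option α → ℕ => cnt (u none) (fun a => u (some a))) :=
    (SFF.count (t := fun (j : Option β) (u : Option α → ℕ) =>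
      j.elim (n (fun a => u (some a))) (fun _ => u none))
      (fun j => by
        cases j with
        | none => exact hn.reindex some
        | some b => exact SFF.proj none) hP).congr fun u => rfl
  have hG : ∀ t v, cnt t v = n v ↔ G t v := by
    intro t v
    have h1 : cnt t v = #{i ∈ range (n v) | ∃ w : β → ℕ, (∀ b, w b < t) ∧
        p (fun o => o.elim i v) w = 0} := by
      refine card_bij (fun x _ => x none) ?_ ?_ ?_
      · intro x hx
        simp only [mem_filter, Fintype.mem_piFinset, mem_range] at hx ⊢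
        exact ⟨hx.1 none, fun b => x (some b), fun b => hx.1 (some b), hx.2⟩
      · intro x hx y hy hxy
        simp only [mem_filter] at hx hy
        have a1 : p (fun o => o.elim (x none) v) (fun b => x (some b)) = 0 := hx.2
        have a2 : p (fun o => o.elim (y none) v) (fun b => y (some b)) = 0 := hy.2
        rw [← show x none = y none from hxy] at a2
        have a3 := (H _).2 _ _ a1 a2
        funext j
        cases j with
        | none => exact hxy
        | some b => exact congrFun a3 b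
      · intro i hi
        simp only [mem_filter, mem_range] at hi
        obtain ⟨h1, w, h2, h3⟩ := hi
        refine ⟨fun o => o.elim i w, ?_, rfl⟩
        simp only [mem_filter, Fintype.mem_piFinset, mem_range]
        exact ⟨fun j => by cases j; exacts [h1, h2 _], h3⟩
    rw [h1]
    nth_rewrite 2 [← card_range (n v)]
    rw [card_filter_eq_iff]
    simp [G]
  have hmono : ∀ {t t' v}, t ≤ t' → G t v → G t' v := fun htt h i hi =>
    let ⟨w, h1, h2⟩ := h i hi
    ⟨w, fun b => (h1 b).trans_le htt, h2⟩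
  have hn' : SFF (fun u : Option α → ℕ => n (fun a => u (some a))) := hn.reindex some
  have hcnt' : SFF (fun u : Option α → ℕ => cnt (u none - 1) (fun a => u (some a))) :=
    hcnt.subst' (F := cnt) (SFF.sub (SFF.proj none) (SFF.const 1)) some
  have hS := ((SFD.eq hcnt hn').and ((SFD.eq (SFF.proj none) (SFF.const 0)).or
    (SFD.eq hcnt' hn').not)).sf
  refine (SF.ex1 (R := fun t v => cnt t v = n v ∧ (t = 0 ∨ ¬ cnt (t - 1) v = n v)) hS ?_).congr
    fun v => ?_
  · rintro v t t' ⟨a1, a2⟩ ⟨b1, b2⟩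
    rw [hG] at a1 a2 b1 b2
    by_contra hne
    rcases lt_or_gt_of_ne hne with h | h
    · exact b2.elim (by omega) fun b => b (hmono (by omega) a1)
    · exact a2.elim (by omega) fun b => b (hmono (by omega) b1)
  · simp only [hG]
    constructor
    · intro h
      have hex : ∃ t, G t v := by
        have h1 : ∀ i, ∃ w : β → ℕ, i < n v → p (fun o => o.elim i v) w = 0 := fun i => by
          by_cases hi : i < n v
          · obtain ⟨w, hw⟩ := (H (fun o => o.elim i v)).1.mp (h i hi)
            exact ⟨w, fun _ => hw⟩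
          · exact ⟨0, fun h => (hi h).elim⟩
        choose w hw using h1
        refine ⟨∑ i ∈ range (n v), ∑ b, w i b + 1, fun i hi => ⟨w i, fun b => ?_, hw i hi⟩⟩
        exact Nat.lt_succ_of_le ((single_le_sum (f := w i) (fun _ _ => Nat.zero_le _)
          (mem_univ b)).trans (single_le_sum (f := fun i => ∑ b, w i b)
          (fun _ _ => Nat.zero_le _) (mem_range.mpr hi)))
      refine ⟨Nat.find hex, Nat.find_spec hex, ?_⟩
      rcases Nat.eq_zero_or_pos (Nat.find hex) with h0 | h0
      · exact Or.inl h0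
      · exact Or.inr (Nat.find_min hex (by omega))
    · rintro ⟨t, ht, -⟩ i hi
      obtain ⟨w, -, hw⟩ := ht i hi
      exact (H (fun o => o.elim i v)).1.mpr ⟨w, hw⟩

end Vale.Agent.P345
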