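import Mathlib

namespace Vale.Agent.P345

open WeierstrassCurve WeierstrassCurve.Affine WeierstrassCurve.Affine.Point

/-- the curve `y^2 = x^3 - 2x` -/
def EW : WeierstrassCurve ℚ := ⟨0, 0, 0, -2, 0⟩

instance : EW.IsElliptic := ⟨by
  have : EW.Δ = 512 := by
    simp only [WeierstrassCurve.Δ, WeierstrassCurve.b₂, WeierstrassCurve.b₄, WeierstrassCurve.b₆,
      WeierstrassCurve.b₈, EW]; norm_num
  rw [this]; exact IsUnit.mk0 _ (by norm_num)⟩

/-- the group of rational points -/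
abbrev Pt : Type := EW.toAffine.Point

lemma nons_iff (x y : ℚ) : EW.toAffine.Nonsingular x y ↔ y ^ 2 = x ^ 3 - 2 * x := by
  rw [← equation_iff_nonsingular, equation_iff]
  simp only [EW, toAffine]
  constructor <;> intro h <;> linarith

/-- abscissa -/
def PX : Pt → ℚ
  | .zero => 0
  | .some x _ _ => x

/-- ordinate -/
def PY : Pt → ℚ
  | .zero => 0
  | .some _ y _ => y

@[simp] lemma PX_zero : PX 0 = 0 := rfl
@[simp] lemma PY_zero : PY 0 = 0 := rfl
@[simp] lemma PX_some {x y : ℚ} (h) : PX (.some x y h) = x := rfl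
@[simp] lemma PY_some {x y : ℚ} (h) : PY (.some x y h) = y := rfl

lemma negY_eq (x y : ℚ) : EW.toAffine.negY x y = -y := by
  simp [negY, EW, toAffine]

lemma Pt.eqn {P : Pt} (hP : P ≠ 0) : PY P ^ 2 = PX P ^ 3 - 2 * PX P := by
  cases P with
  | zero => exact absurd rfl hP
  | some x y h => exact (nons_iff x y).mp h

lemma Pt.ext' {P Q : Pt} (hP : P ≠ 0) (hQ : Q ≠ 0) (hx : PX P = PX Q) (hy : PY P = PY Q) :
    P = Q := by
  cases P with
  | zero => exact absurd rfl hP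
  | some x y h =>
    cases Q with
    | zero => exact absurd rfl hQ
    | some x' y' h' =>
      simp only [PX_some, PY_some] at hx hy
      subst hx hy; rfl

lemma PX_neg (P : Pt) : PX (-P) = PX P := by
  cases P with
  | zero => rfl
  | some x y h => rfl

lemma PY_neg (P : Pt) : PY (-P) = -PY P := by
  cases P with
  | zero => simp [← zero_def]
  | some x y h => rw [neg_some]; simp only [PY_some, negY_eq]

lemma eq_or_neg {P Q : Pt} (hP : P ≠ 0) (hQ : Q ≠ 0) (hx : PX P = PX Q) : P = Q ∨ P = -Q := by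
  cases P with
  | zero => exact absurd rfl hP
  | some x y h =>
    cases Q with
    | zero => exact absurd rfl hQ
    | some x' y' h' => exact X_eq_iff.mp hx

/-- slope of the secant or tangent line -/
def slp (x₁ y₁ x₂ y₂ : ℚ) : ℚ :=
  if x₁ = x₂ then (3 * x₁ ^ 2 - 2) / (2 * y₁) else (y₁ - y₂) / (x₁ - x₂)

lemma add_eq_zero' {P Q : Pt} (hP : P ≠ 0) (hQ : Q ≠ 0) (h : PX P = PX Q ∧ PY P = -PY Q) :
    P + Q = 0 := by
  rw [add_eq_zero_iff_eq_neg]
  exact Pt.ext' hP (neg_ne_zero.mpr hQ) (by rw [PX_neg]; exact h.1) (by rw [PY_neg]; exact h.2)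

lemma add_formula {P Q : Pt} (hP : P ≠ 0) (hQ : Q ≠ 0) (h : ¬(PX P = PX Q ∧ PY P = -PY Q)) :
    P + Q ≠ 0 ∧ PX (P + Q) = slp (PX P) (PY P) (PX Q) (PY Q) ^ 2 - PX P - PX Q ∧
      PY (P + Q) = -(slp (PX P) (PY P) (PX Q) (PY Q) * (PX (P + Q) - PX P) + PY P) := by
  cases P with
  | zero => exact absurd rfl hP
  | some x y h1 =>
    cases Q with
    | zero => exact absurd rfl hQ
    | some x' y' h2 =>
      simp only [PX_some, PY_some] at h ⊢
      have h' : ¬(x = x' ∧ y = EW.toAffine.negY x' y') := by rwa [negY_eq]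
      have hs : EW.toAffine.slope x x' y y' = slp x y x' y' := by
        unfold slp
        by_cases hx : x = x'
        · rw [slope_of_Y_ne hx (fun hy => h' ⟨hx, hy⟩), if_pos hx, negY_eq]
          simp only [EW, toAffine]
          congr 1 <;> ring
        · rw [slope_of_X_ne hx, if_neg hx]
      rw [add_some h']
      refine ⟨some_ne_zero _, ?_, ?_⟩
      · simp only [PX_some, addX, hs]
        simp [EW, toAffine]
      · simp only [PX_some, PY_some, addY, negY_eq, negAddY, hs]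

lemma xRep_eq {P : Pt} (hP : P ≠ 0) : P.xRep = ![PX P, 1] := by
  cases P with
  | zero => exact absurd rfl hP
  | some x y h => rfl

lemma sym2x_eq {P Q : Pt} (hP : P ≠ 0) (hQ : Q ≠ 0) :
    P.sym2x Q = ![PX P * PX Q, PX P + PX Q, 1] := by
  cases P with
  | zero => exact absurd rfl hP
  | some x y h =>
    cases Q with
    | zero => exact absurd rfl hQ
    | some x' y' h' => simp

lemma sym2x_eq_zero {P : Pt} (hP : P ≠ 0) : P.sym2x 0 = ![PX P, 1, 0] := by
  cases P with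
  | zero => exact absurd rfl hP
  | some x y h => simp

lemma addSubMap_eval (s t u : ℚ) :
    (fun i => MvPolynomial.eval ![s, t, u] (addSubMap EW i)) =
      ![(s + 2 * u) ^ 2, 2 * t * (s - 2 * u), t ^ 2 - 4 * s * u] := by
  funext i
  fin_cases i <;> simp [addSubMap, WeierstrassCurve.b₂, WeierstrassCurve.b₄, WeierstrassCurve.b₆,
      WeierstrassCurve.b₈, EW] <;> ring

lemma double_formula {P : Pt} (hP : P ≠ 0) (hy : PY P ≠ 0) :
    P + P ≠ 0 ∧ PX (P + P) = ((PX P ^ 2 + 2) / (2 * PY P)) ^ 2 := by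
  have h : ¬(PX P = PX P ∧ PY P = -PY P) := fun h => hy (by linarith [h.2])
  obtain ⟨h1, h2, -⟩ := add_formula hP hP h
  refine ⟨h1, ?_⟩
  rw [h2, slp, if_pos rfl]
  have e := Pt.eqn hP
  field_simp
  linear_combination (-8 * PX P) * e

lemma par_self (P : Pt) : ∃ c : ℚ, c ≠ 0 ∧
    (fun i => MvPolynomial.eval (P.sym2x P) (addSubMap EW i)) = c • (P + P).sym2x 0 := by
  by_cases hP : P = 0
  · subst hP
    refine ⟨1, one_ne_zero, ?_⟩
    rw [add_zero, sym2x_zero_zero, addSubMap_eval]; simp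
  rw [sym2x_eq hP hP, addSubMap_eval]
  have e := Pt.eqn hP
  by_cases hy : PY P = 0
  · have : P + P = 0 := add_eq_zero' hP hP ⟨rfl, by rw [hy]; simp⟩
    rw [this, sym2x_zero_zero]
    refine ⟨(PX P * PX P + 2) ^ 2, (pow_pos (by nlinarith [sq_nonneg (PX P)]) 2).ne', ?_⟩
    rw [hy] at e
    have e' : 2 * (PX P + PX P) * (PX P * PX P - 2 * 1) = 0 := by linear_combination (-4) * e
    rw [e']
    funext i
    fin_cases i <;> simp
    ring
  · obtain ⟨h1, h2⟩ := double_formula hP hy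
    rw [sym2x_eq_zero h1, h2]
    refine ⟨4 * PY P ^ 2, by positivity, ?_⟩
    funext i
    fin_cases i <;> simp
    · field_simp; ring
    · linear_combination (-4) * e
    · ring

lemma par (P Q : Pt) : ∃ c : ℚ, c ≠ 0 ∧
    (fun i => MvPolynomial.eval (P.sym2x Q) (addSubMap EW i)) = c • (P + Q).sym2x (P - Q) := by
  by_cases hP : P = 0
  · subst hP
    by_cases hQ : Q = 0
    · subst hQ; simpa using par_self 0
    refine ⟨1, one_ne_zero, ?_⟩
    rw [zero_add, zero_sub, sym2x_neg_right, sym2x_comm, sym2x_eq_zero hQ, sym2x_eq hQ hQ,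
      addSubMap_eval]
    funext i
    fin_cases i <;> simp <;> ring
  by_cases hQ : Q = 0
  · subst hQ
    refine ⟨1, one_ne_zero, ?_⟩
    rw [add_zero, sub_zero, sym2x_eq_zero hP, sym2x_eq hP hP, addSubMap_eval]
    funext i
    fin_cases i <;> simp <;> ring
  by_cases hx : PX P = PX Q
  · rcases eq_or_neg hP hQ hx with h | h
    · subst h; rw [sub_self]; exact par_self P
    · have : Q = -P := by rw [h, neg_neg]
      subst this
      rw [sym2x_neg_right, add_neg_cancel, sub_neg_eq_add, sym2x_comm (0 : Pt)]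
      exact par_self P
  · obtain ⟨a1, a2, -⟩ := add_formula hP hQ (fun h => hx h.1)
    obtain ⟨b1, b2, -⟩ := add_formula hP (neg_ne_zero.mpr hQ) (fun h => hx (by
      rw [PX_neg] at h; exact h.1))
    rw [← sub_eq_add_neg] at b1 b2
    rw [PX_neg, PY_neg] at b2
    rw [slp, if_neg hx] at a2 b2
    have hx' : PX P - PX Q ≠ 0 := sub_ne_zero.mpr hx
    refine ⟨(PX P - PX Q) ^ 2, by positivity, ?_⟩
    rw [sym2x_eq hP hQ, sym2x_eq a1 b1, addSubMap_eval, a2, b2]
    have e1 := Pt.eqn hP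
    have e2 := Pt.eqn hQ
    generalize PX P = x1 at *
    generalize PX Q = x2 at *
    generalize PY P = y1 at *
    generalize PY Q = y2 at *
    have k1 : ((y1 - y2) / (x1 - x2)) ^ 2 - x1 - x2 =
        ((x1 + x2) * (x1 * x2 - 2) - 2 * y1 * y2) / (x1 - x2) ^ 2 := by
      field_simp
      linear_combination e1 + e2
    have k2 : ((y1 - -y2) / (x1 - x2)) ^ 2 - x1 - x2 =
        ((x1 + x2) * (x1 * x2 - 2) + 2 * y1 * y2) / (x1 - x2) ^ 2 := by
      field_simp
      linear_combination e1 + e2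
    rw [k1, k2]
    funext i
    fin_cases i <;> simp
    · field_simp
      linear_combination (4 * y2 ^ 2) * e1 + (4 * (x1 ^ 3 - 2 * x1)) * e2
    · field_simp
      ring
    · ring

/-- integer height -/
def HH (P : Pt) : ℕ := max (PX P).num.natAbs (PX P).den

/-- logarithmic height -/
noncomputable def hh (P : Pt) : ℝ := Real.log (HH P)

lemma HH_pos (P : Pt) : 0 < HH P := lt_of_lt_of_le (PX P).den_pos (le_max_right _ _)

lemma hh_nonneg (P : Pt) : 0 ≤ hh P := Real.log_natCast_nonneg _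

lemma hh_eq (P : Pt) : hh P = Height.logHeight₁ (PX P) := by
  rw [Rat.logHeight₁_eq_log_max]; rfl

lemma hh_eq' (P : Pt) : hh P = Height.logHeight P.xRep := by
  rw [hh_eq]
  by_cases hP : P = 0
  · subst hP
    rw [xRep_zero, ← Height.logHeight₁_div_eq_logHeight]; simp
  · rw [xRep_eq hP, Height.logHeight₁_eq_logHeight]

lemma hh_zero : hh 0 = 0 := by simp [hh, HH]

lemma hh_neg (P : Pt) : hh (-P) = hh P := by rw [hh_eq, hh_eq, PX_neg]

lemma parallelogram : ∃ C : ℝ, ∀ P Q : Pt,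
    |hh (P + Q) + hh (P - Q) - 2 * (hh P + hh Q)| ≤ C := by
  obtain ⟨C₁, h₁⟩ := abs_logHeight_addSubMap_sub_two_mul_logHeight_le EW
  obtain ⟨C₂, h₂⟩ := Height.abs_logHeight_sym2_sub_le ℚ
  have h₃ : ∀ P Q : Pt, |Height.logHeight (P.sym2x Q) - (hh P + hh Q)| ≤ C₂ := by
    intro P Q
    have a1 : P.xRep = ![P.xRep 0, P.xRep 1] := by funext i; fin_cases i <;> rfl
    have a2 : Q.xRep = ![Q.xRep 0, Q.xRep 1] := by funext i; fin_cases i <;> rfl
    have := h₂ (a1 ▸ xRep_ne_zero P) (a2 ▸ xRep_ne_zero Q)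
    rw [← a1, ← a2, ← hh_eq', ← hh_eq'] at this
    exact this
  refine ⟨C₁ + 3 * C₂, fun P Q => ?_⟩
  obtain ⟨c, hc, h⟩ := par P Q
  have b1 := h₁ (P.sym2x Q)
  rw [h, Height.logHeight_smul_eq_logHeight _ hc] at b1
  have b2 := h₃ P Q
  have b3 := h₃ (P + Q) (P - Q)
  rw [abs_le] at b1 b2 b3 ⊢
  constructor <;> linarith [b1.1, b1.2, b2.1, b2.2, b3.1, b3.2]

instance : Northcott hh := ⟨fun B => by
  have h1 := NumberField.finite_setOfPred_logHeight₁_le ℚ B
  have h2 : ∀ x : ℚ, {P : Pt | P ≠ 0 ∧ PX P = x}.Finite := by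
    intro x
    by_cases hne : {P : Pt | P ≠ 0 ∧ PX P = x}.Nonempty
    · obtain ⟨P₀, hP₀⟩ := hne
      refine (Set.toFinite {P₀, -P₀}).subset fun P hP => ?_
      exact eq_or_neg hP.1 hP₀.1 (hP.2.trans hP₀.2.symm)
    · rw [Set.not_nonempty_iff_eq_empty.mp hne]; exact Set.finite_empty
  refine ((Set.finite_singleton (0 : Pt)).union (h1.biUnion fun x _ => h2 x)).subset ?_
  intro P hP
  by_cases h0 : P = 0
  · left; exact h0
  · right
    simp only [Set.mem_iUnion]
    exact ⟨PX P, by rw [Set.mem_ofPred_eq, ← hh_eq]; exact hP, h0, rfl⟩⟩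

/-- a point of infinite order -/
def P0 : Pt := .some (-1) 1 ((nons_iff _ _).mpr (by norm_num))

/-- the point of order two -/
def T0 : Pt := .some 0 0 ((nons_iff _ _).mpr (by norm_num))

lemma P0_ne : P0 ≠ 0 := some_ne_zero _
lemma T0_ne : T0 ≠ 0 := some_ne_zero _

lemma T0_add : T0 + T0 = 0 := add_eq_zero' T0_ne T0_ne ⟨rfl, by simp [T0]⟩

lemma eq_T0 {Q : Pt} (hQ : Q ≠ 0) (hx : PX Q = 0) : Q = T0 := by
  refine Pt.ext' hQ T0_ne hx ?_
  have e := Pt.eqn hQ
  rw [hx] at e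
  have : PY Q = 0 := by simpa using e
  rw [this]; rfl

lemma class_lemma (b : ℤ) (hb : b ∣ 8) (x y : ℚ) (h : y ^ 2 = x ^ 3 + b * x) :
    ∃ w : ℚ, x = w ^ 2 ∨ x = -w ^ 2 ∨ x = 2 * w ^ 2 ∨ x = -(2 * w ^ 2) := by
  set m := x.num with hm
  set n : ℤ := (x.den : ℤ) with hn
  have hn0 : (n : ℚ) ≠ 0 := by simp [hn]
  have hx : x = m / n := by rw [hm, hn]; exact (Rat.num_div_den x).symm
  have hcop : IsCoprime m n := by
    rw [Int.isCoprime_iff_gcd_eq_one]; exact x.reduced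
  have hZ : (y * n ^ 2) ^ 2 = ((m * n * (m ^ 2 + b * n ^ 2) : ℤ) : ℚ) := by
    push_cast
    rw [mul_pow, h, hx]; field_simp
  have hsq : IsSquare (m * n * (m ^ 2 + b * n ^ 2)) := by
    rw [← Rat.isSquare_intCast_iff, ← hZ]; exact ⟨_, sq _⟩
  obtain ⟨Z, hZ'⟩ := hsq
  set A := m * n with hA
  set B := m ^ 2 + b * n ^ 2 with hB
  have hxA : x = A / n ^ 2 := by rw [hx, hA]; push_cast; field_simp
  by_cases hA0 : A = 0
  · exact ⟨0, Or.inl (by rw [hxA, hA0]; simp)⟩
  set g := Int.gcd A B with hg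
  have hg0 : 0 < g := Int.gcd_pos_of_ne_zero_left _ hA0
  have hgA : (g : ℤ) ∣ A := Int.gcd_dvd_left _ _
  have hgB : (g : ℤ) ∣ B := Int.gcd_dvd_right _ _
  have hgn : IsCoprime (g : ℤ) n := by
    have : IsCoprime B n := by
      rw [hB, show m ^ 2 + b * n ^ 2 = m ^ 2 + n * (b * n) by ring]
      exact (hcop.pow_left).add_mul_left_left _
    exact this.of_isCoprime_of_dvd_left hgB
  have hgm : (g : ℤ) ∣ m := hgn.dvd_of_dvd_mul_right hgA
  have hgb : (g : ℤ) ∣ b := by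
    have h1 : (g : ℤ) ∣ b * n ^ 2 := by
      have := dvd_sub hgB (dvd_pow hgm (two_ne_zero))
      rwa [hB, add_sub_cancel_left] at this
    exact hgn.pow_right.dvd_of_dvd_mul_right h1
  have hg8 : g ∣ 2 ^ 3 := by
    have : (g : ℤ) ∣ ((8 : ℕ) : ℤ) := hgb.trans hb
    exact Int.natCast_dvd_natCast.mp this
  obtain ⟨A', hA'⟩ := hgA
  obtain ⟨B', hB'⟩ := hgB
  have hcop' : Int.gcd A' B' = 1 := by
    have := Int.gcd_mul_left (g : ℤ) A' B'
    rw [← hA', ← hB', ← hg, Int.natAbs_natCast] at this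
    exact (Nat.mul_eq_left hg0.ne').mp this.symm
  have hgZ : (g : ℤ) ∣ Z := by
    rw [← Int.pow_dvd_pow_iff (two_ne_zero), sq Z, ← hZ', hA', hB']
    exact ⟨A' * B', by ring⟩
  obtain ⟨Z', rfl⟩ := hgZ
  have hAB : A' * B' = Z' ^ 2 := by
    have hg' : (g : ℤ) ^ 2 ≠ 0 := by positivity
    refine mul_left_cancel₀ hg' ?_
    rw [hA', hB'] at hZ'
    linear_combination hZ'
  obtain ⟨a, ha⟩ := Int.sq_of_gcd_eq_one hcop' hAB
  obtain ⟨k, hk, hgk⟩ := (Nat.dvd_prime_pow Nat.prime_two).mp hg8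
  rw [hA', hgk] at hxA
  interval_cases k
  · refine ⟨a / n, ?_⟩
    rcases ha with ha | ha <;> rw [ha] at hxA <;> push_cast at hxA
    · left; rw [hxA]; field_simp
    · right; left; rw [hxA]; field_simp
  · refine ⟨a / n, ?_⟩
    rcases ha with ha | ha <;> rw [ha] at hxA <;> push_cast at hxA
    · right; right; left; rw [hxA]; field_simp
    · right; right; right; rw [hxA]; field_simp
  · refine ⟨2 * a / n, ?_⟩
    rcases ha with ha | ha <;> rw [ha] at hxA <;> push_cast at hxA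
    · left; rw [hxA]; field_simp; ring
    · right; left; rw [hxA]; field_simp; ring
  · refine ⟨2 * a / n, ?_⟩
    rcases ha with ha | ha <;> rw [ha] at hxA <;> push_cast at hxA
    · right; right; left; rw [hxA]; field_simp; ring
    · right; right; right; rw [hxA]; field_simp; ring

lemma halve_aux {Q : Pt} (hQ : Q ≠ 0) {u s w : ℚ} (hu : PX Q = u ^ 2) (hs : s ^ 2 = u ^ 4 - 2)
    (hw : w ^ 2 = 2 * (u ^ 2 + s)) : ∃ R : Pt, Q = R + R := by
  have hw0 : w ≠ 0 := by
    rintro rfl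
    have : s = -u ^ 2 := by linarith
    rw [this] at hs
    nlinarith
  have hq : w ^ 4 + 8 = 4 * u ^ 2 * w ^ 2 := by
    have : w ^ 4 = (w ^ 2) ^ 2 := by ring
    rw [this, hw]; linear_combination 4 * hs
  set x1 := w ^ 2 / 2 + u * w with hx1
  have hprod : x1 * (w ^ 2 / 2 - u * w) = -2 := by rw [hx1]; linear_combination (1 / 4) * hq
  have hx0 : x1 ≠ 0 := by
    intro h; rw [h] at hprod; norm_num at hprod
  have heq : (w * x1) ^ 2 = x1 ^ 3 - 2 * x1 := by
    have : x1 ^ 2 - w ^ 2 * x1 - 2 = 0 := by rw [hx1]; linear_combination (-1 / 4) * hq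
    linear_combination (-x1) * this
  let R : Pt := .some x1 (w * x1) ((nons_iff _ _).mpr heq)
  have hR : R ≠ 0 := some_ne_zero _
  obtain ⟨h1, h2⟩ := double_formula hR (mul_ne_zero hw0 hx0)
  have h3 : PX (R + R) = PX Q := by
    rw [h2, hu]
    congr 1
    change (x1 ^ 2 + 2) / (2 * (w * x1)) = u
    rw [div_eq_iff (by positivity)]
    linear_combination hprod + x1 * hx1
  rcases eq_or_neg h1 hQ h3 with h | h
  · exact ⟨R, h.symm⟩
  · exact ⟨-R, by rw [← neg_add, h, neg_neg]⟩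

lemma halve {Q : Pt} (hQ : Q ≠ 0) {u : ℚ} (hu0 : u ≠ 0) (hu : PX Q = u ^ 2) :
    ∃ R : Pt, Q = R + R := by
  have e := Pt.eqn hQ
  rw [hu] at e
  set s := PY Q / u with hsdef
  have hs : s ^ 2 = u ^ 4 - 2 := by
    rw [hsdef]; field_simp; linear_combination e
  have hpos : 0 < u ^ 2 + s := by
    by_contra hc
    have : s ≤ -u ^ 2 := by linarith
    nlinarith [sq_nonneg u]
  obtain ⟨w, hw⟩ := class_lemma 8 dvd_rfl (2 * (u ^ 2 + s)) (2 * u * (2 * (u ^ 2 + s))) (by
    push_cast; linear_combination (-8 * (u ^ 2 + s)) * hs)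
  rcases hw with hw | hw | hw | hw
  · exact halve_aux hQ hu hs hw.symm
  · nlinarith [sq_nonneg w]
  · have hw0 : w ≠ 0 := by rintro rfl; linarith
    refine halve_aux (s := -s) (w := 2 / w) hQ hu (by rw [neg_sq]; exact hs) ?_
    have h1 : u ^ 2 + s = w ^ 2 := by linarith
    field_simp
    rw [← h1]; linear_combination hs
  · nlinarith [sq_nonneg w]

lemma add_T0 {Q : Pt} (hQ : Q ≠ 0) (hx : PX Q ≠ 0) : Q + T0 ≠ 0 ∧ PX (Q + T0) = -2 / PX Q := by
  obtain ⟨h1, h2, -⟩ := add_formula hQ T0_ne (fun h => hx h.1)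
  refine ⟨h1, ?_⟩
  have e := Pt.eqn hQ
  rw [h2, slp, if_neg (show PX Q ≠ PX T0 from hx)]
  simp only [T0, PX_some, PY_some, sub_zero]
  field_simp
  linear_combination e

/-- finite set of coset representatives -/
def reps : Set Pt := {0, T0, P0, -P0, P0 + T0, -P0 + T0}

lemma desc_neg {Q : Pt} (hQ : Q ≠ 0) {w : ℚ} (hw0 : w ≠ 0) (hw : PX Q = -w ^ 2) :
    ∃ R : Pt, Q = P0 + (R + R) ∨ Q = -P0 + (R + R) ∨ Q = -P0 + T0 + (R + R) := by
  by_cases hx : PX Q = PX P0
  · rcases eq_or_neg hQ P0_ne hx with h | h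
    · exact ⟨0, Or.inl (by simp [h])⟩
    · exact ⟨0, Or.inr (Or.inl (by simp [h]))⟩
  obtain ⟨h1, h2, -⟩ := add_formula hQ P0_ne (fun h => hx h.1)
  rw [slp, if_neg hx] at h2
  have e := Pt.eqn hQ
  simp only [P0, PX_some, PY_some] at h2 hx
  have hx' : PX Q - -1 ≠ 0 := sub_ne_zero.mpr hx
  have h3 : PX (Q + P0) = ((PX Q + PY Q) / (PX Q - -1) / w) ^ 2 := by
    simp only [P0]
    rw [h2, div_pow _ w, show w ^ 2 = -PX Q by linarith]
    have : PX Q ≠ 0 := by rw [hw]; exact neg_ne_zero.mpr (pow_ne_zero 2 hw0)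
    field_simp
    linear_combination (PX Q + 1) * e
  by_cases h4 : (PX Q + PY Q) / (PX Q - -1) / w = 0
  · rw [h4] at h3
    have := eq_T0 h1 (by simpa using h3)
    exact ⟨0, Or.inr (Or.inr (by rw [← this]; simp))⟩
  · obtain ⟨R, hR⟩ := halve h1 h4 h3
    exact ⟨R, Or.inr (Or.inl (by rw [← hR]; simp))⟩

lemma descent (Q : Pt) : ∃ S ∈ reps, ∃ R : Pt, Q = S + (R + R) := by
  by_cases hQ : Q = 0
  · exact ⟨0, by simp [reps], 0, by simp [hQ]⟩
  by_cases hx : PX Q = 0
  · exact ⟨T0, by simp [reps], 0, by simp [eq_T0 hQ hx]⟩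
  obtain ⟨w, hw⟩ := class_lemma (-2) (by norm_num) (PX Q) (PY Q) (by
    rw [Pt.eqn hQ]; push_cast; ring)
  have hw0 : w ≠ 0 := by
    rintro rfl
    apply hx
    rcases hw with hw | hw | hw | hw <;> simpa using hw
  obtain ⟨t1, t2⟩ := add_T0 hQ hx
  have hQT : Q = Q + T0 + T0 := by rw [add_assoc, T0_add, add_zero]
  rcases hw with hw | hw | hw | hw
  · obtain ⟨R, hR⟩ := halve hQ hw0 hw
    exact ⟨0, by simp [reps], R, by simp [hR]⟩
  · obtain ⟨R, hR | hR | hR⟩ := desc_neg hQ hw0 hw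
    · exact ⟨_, by simp [reps], R, hR⟩
    · exact ⟨_, by simp [reps], R, hR⟩
    · exact ⟨_, by simp [reps], R, hR⟩
  · obtain ⟨R, hR | hR | hR⟩ := desc_neg t1 (w := 1 / w) (by positivity) (by
      rw [t2, hw]; field_simp)
    · exact ⟨P0 + T0, by simp [reps], R, by rw [hQT, hR]; abel⟩
    · exact ⟨-P0 + T0, by simp [reps], R, by rw [hQT, hR]; abel⟩
    · refine ⟨-P0, by simp [reps], R, ?_⟩
      rw [hQT, hR]
      calc -P0 + T0 + (R + R) + T0 = -P0 + (R + R) + (T0 + T0) := by abel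
        _ = _ := by rw [T0_add, add_zero]
  · obtain ⟨R, hR⟩ := halve t1 (u := 1 / w) (by positivity) (by rw [t2, hw]; field_simp)
    exact ⟨T0, by simp [reps], R, by rw [hQT, hR]; abel⟩

end Vale.Agent.P345
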