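import Vale.Agent.P345.EC

namespace Vale.Agent.P345

lemma pt_fg : AddGroup.FG Pt := by
  obtain ⟨C, hC⟩ := parallelogram
  refine AddCommGroup.fg_of_descent' ?_ hh_nonneg hC
  have hfin : reps.Finite := by unfold reps; exact Set.toFinite _
  have := hfin.to_subtype
  have : Finite (Pt ⧸ (nsmulAddMonoidHom (α := Pt) 2).range) := by
    refine Finite.of_surjective (fun S : reps => (QuotientAddGroup.mk S.1 :
      Pt ⧸ (nsmulAddMonoidHom (α := Pt) 2).range)) ?_
    intro q
    obtain ⟨Q, rfl⟩ := QuotientAddGroup.mk_surjective q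
    obtain ⟨S, hS, R, hR⟩ := descent Q
    refine ⟨⟨S, hS⟩, ?_⟩
    rw [QuotientAddGroup.eq]
    exact ⟨R, by simp [hR, two_nsmul]⟩
  exact AddSubgroup.finiteIndex_of_finite_quotient

lemma exists_N : ∃ N : ℤ, N ≠ 0 ∧ ∀ Q : Pt, ∃ n : ℤ, N • Q = n • P0 := by
  have hfin : Module.Finite ℤ Pt := Module.Finite.iff_addGroup_fg.mpr pt_fg
  have hle : (⊤ : Submodule ℤ Pt) ≤ Submodule.span ℤ {P0, T0} ⊔ Ideal.span {(2 : ℤ)} • ⊤ := by
    intro Q _
    obtain ⟨S, hS, R, hR⟩ := descent Q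
    rw [hR]
    refine Submodule.add_mem_sup ?_ ?_
    · have h1 : P0 ∈ Submodule.span ℤ ({P0, T0} : Set Pt) := Submodule.subset_span (by simp)
      have h2 : T0 ∈ Submodule.span ℤ ({P0, T0} : Set Pt) := Submodule.subset_span (by simp)
      simp only [reps, Set.mem_insert_iff, Set.mem_singleton_iff] at hS
      rcases hS with rfl | rfl | rfl | rfl | rfl | rfl
      · exact zero_mem _
      · exact h2
      · exact h1
      · exact neg_mem h1
      · exact add_mem h1 h2
      · exact add_mem (neg_mem h1) h2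
    · rw [← two_zsmul]
      exact Submodule.smul_mem_smul (Ideal.subset_span rfl) trivial
  obtain ⟨r, hr, hr'⟩ := Submodule.exists_sub_one_mem_and_smul_le_of_fg_of_le_sup
    hfin.fg_top le_rfl hle
  rw [Ideal.mem_span_singleton] at hr
  refine ⟨2 * r, by omega, fun Q => ?_⟩
  have : r • Q ∈ Submodule.span ℤ ({P0, T0} : Set Pt) :=
    hr' (Submodule.smul_mem_pointwise_smul Q r ⊤ trivial)
  obtain ⟨a, b, hab⟩ := Submodule.mem_span_pair.mp this
  refine ⟨2 * a, ?_⟩
  rw [mul_smul, ← hab, zsmul_add, mul_smul, smul_comm (2 : ℤ) b T0, two_zsmul T0, T0_add,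
    zsmul_zero, add_zero]

lemma val_double {Q : Pt} (hQ : Q ≠ 0) (hv : padicValRat 2 (PX Q) < 0) :
    Q + Q ≠ 0 ∧ padicValRat 2 (PX (Q + Q)) = padicValRat 2 (PX Q) - 2 := by
  have e := Pt.eqn hQ
  set x := PX Q with hx
  have hx0 : x ≠ 0 := by intro h; rw [h] at hv; simp at hv
  have h2 : padicValRat 2 (2 : ℚ) = 1 := by
    have := padicValRat.self (p := 2) (by norm_num)
    simpa using this
  have v2x : padicValRat 2 (-(2 * x)) = 1 + padicValRat 2 x := by
    rw [padicValRat.neg, padicValRat.mul two_ne_zero hx0, h2]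
  have v3 : padicValRat 2 (x ^ 3) = 3 * padicValRat 2 x := by rw [padicValRat.pow]; norm_num
  have hne : x ^ 3 + -(2 * x) ≠ 0 := by
    intro h
    have : x ^ 3 = 2 * x := by linarith
    rw [this, ← padicValRat.neg, v2x] at v3
    omega
  have hy : PY Q ≠ 0 := by
    intro h; rw [h] at e; apply hne; linarith
  obtain ⟨h1, h3⟩ := double_formula hQ hy
  refine ⟨h1, ?_⟩
  have vy : 2 * padicValRat 2 (PY Q) = 3 * padicValRat 2 x := by
    have a1 := padicValRat.add_eq_of_lt (p := 2) hne (pow_ne_zero 3 hx0)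
      (neg_ne_zero.mpr (mul_ne_zero two_ne_zero hx0)) (by rw [v3, v2x]; omega)
    rw [← sub_eq_add_neg, ← e, padicValRat.pow, v3] at a1
    exact_mod_cast a1
  have hs : x ^ 2 + 2 ≠ 0 := by positivity
  have vs : padicValRat 2 (x ^ 2 + 2) = 2 * padicValRat 2 x := by
    rw [padicValRat.add_eq_of_lt hs (pow_ne_zero 2 hx0) two_ne_zero (by
      rw [padicValRat.pow, h2]; push_cast; omega), padicValRat.pow]
    norm_num
  rw [h3, padicValRat.pow, padicValRat.div hs (mul_ne_zero two_ne_zero hy), vs,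
    padicValRat.mul two_ne_zero hy, h2]
  push_cast
  omega

lemma val_iter (k : ℕ) : (2 ^ k) • (P0 + P0) ≠ 0 ∧
    padicValRat 2 (PX ((2 ^ k) • (P0 + P0))) = -2 - 2 * k := by
  induction k with
  | zero =>
    obtain ⟨h1, h2⟩ := double_formula P0_ne (by simp [P0])
    rw [pow_zero, one_nsmul]
    refine ⟨h1, ?_⟩
    rw [h2]
    simp only [P0, PX_some, PY_some]
    have h3 : padicValRat 2 (2 : ℚ) = 1 := by
      have := padicValRat.self (p := 2) (by norm_num)
      simpa using this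
    have h4 : padicValRat 2 (3 : ℚ) = 0 := by
      have : padicValRat 2 ((3 : ℕ) : ℚ) = 0 := by
        rw [padicValRat.of_nat]; simp [padicValNat.eq_zero_of_not_dvd]
      simpa using this
    rw [show (((-1 : ℚ) ^ 2 + 2) / (2 * 1)) = 3 / 2 by norm_num, padicValRat.pow,
      padicValRat.div (by norm_num) (by norm_num), h3, h4]
    norm_num
  | succ k ih =>
    obtain ⟨h1, h2⟩ := val_double ih.1 (by rw [ih.2]; omega)
    rw [pow_succ, mul_comm, mul_nsmul', two_nsmul]
    refine ⟨h1, ?_⟩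
    rw [h2, ih.2]; push_cast; ring

lemma P0_inf {n : ℤ} (h : n • P0 = 0) : n = 0 := by
  by_contra hn
  have h1 : IsOfFinAddOrder P0 := isOfFinAddOrder_iff_zsmul_eq_zero.mpr ⟨n, hn, h⟩
  have h2 := h1.finite_multiples
  refine Set.infinite_of_injective_forall_mem (f := fun k : ℕ => (2 ^ k) • (P0 + P0))
    (fun i j hij => ?_) (fun k => ?_) h2
  · have a1 := (val_iter i).2
    have a2 := (val_iter j).2
    simp only at hij
    rw [hij, a2] at a1
    omega
  · exact nsmul_mem (add_mem (AddSubmonoid.mem_multiples P0) (AddSubmonoid.mem_multiples P0)) _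

theorem structure_thm (B : ℝ) : ∃ (m : ℕ) (G : Pt), B ≤ hh G ∧
    (∀ R : Pt, ∃ n : ℤ, m • R = n • G) ∧ (∀ n : ℤ, ∃ R : Pt, m • R = n • G) ∧
    {T : Pt | m • T = 0}.Finite := by
  obtain ⟨N, hN, hNQ⟩ := exists_N
  let A : AddSubgroup ℤ :=
    { carrier := {n | ∃ R : Pt, N • R = n • P0}
      zero_mem' := ⟨0, by rw [zsmul_zero, zero_zsmul]⟩
      add_mem' := by
        rintro a b ⟨R, hR⟩ ⟨S, hS⟩
        exact ⟨R + S, by rw [zsmul_add, hR, hS, add_zsmul]⟩
      neg_mem' := by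
        rintro a ⟨R, hR⟩
        exact ⟨-R, by rw [zsmul_neg, hR, neg_zsmul]⟩ }
  obtain ⟨d, hd⟩ := Int.subgroup_cyclic A
  have hmem : ∀ n : ℤ, (∃ R : Pt, N • R = n • P0) ↔ ∃ k : ℤ, k * d = n := by
    intro n
    have : n ∈ A ↔ ∃ k : ℤ, k * d = n := by
      rw [hd, AddSubgroup.mem_closure_singleton]; rfl
    exact this
  have hd0 : d ≠ 0 := by
    rintro rfl
    obtain ⟨k, hk⟩ := (hmem N).mp ⟨P0, rfl⟩
    exact hN (by simpa using hk.symm)
  have hinf : ∃ k : ℕ, B ≤ hh (((k + 1 : ℕ) * d : ℤ) • P0) := by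
    by_contra hc
    push Not at hc
    refine Set.infinite_of_injective_forall_mem
      (f := fun k : ℕ => ((k + 1 : ℕ) * d : ℤ) • P0) (fun i j hij => ?_) (fun k => (hc k).le)
      (Northcott.finite_le (h := hh) B)
    simp only at hij
    rw [← sub_eq_zero, ← sub_smul] at hij
    have := P0_inf hij
    rw [← sub_mul, mul_eq_zero] at this
    rcases this with h | h
    · push_cast at h; omega
    · exact absurd h hd0
  obtain ⟨k, hk⟩ := hinf
  have hm : ∀ R : Pt, ((k + 1) * N.natAbs) • R = ((k + 1 : ℕ) : ℤ) • (N • (N.sign • R)) := by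
    intro R
    rw [← natCast_zsmul, ← mul_smul, ← mul_smul]
    congr 1
    push_cast
    rw [mul_assoc, Int.mul_sign_self]; simp
  refine ⟨(k + 1) * N.natAbs, _, hk, fun R => ?_, fun n => ?_, ?_⟩
  · obtain ⟨n, hn⟩ := hNQ (N.sign • R)
    obtain ⟨j, hj⟩ := (hmem n).mp ⟨_, hn⟩
    refine ⟨j, ?_⟩
    rw [hm, hn, ← hj, ← mul_smul, ← mul_smul]
    congr 1; ring
  · obtain ⟨R, hR⟩ := (hmem (n * d)).mpr ⟨n, rfl⟩
    refine ⟨N.sign • R, ?_⟩
    rw [hm, ← mul_smul N.sign, ← Int.sign_mul, Int.sign_eq_one_of_pos (mul_self_pos.mpr hN),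
      one_smul, hR, ← mul_smul, ← mul_smul]
    congr 1; ring
  · obtain ⟨C, hC⟩ := parallelogram
    have hf := AddCommGroup.finite_torsion_of_descent' hC
    refine (Set.toFinite (AddCommGroup.torsion Pt : Set Pt)).subset fun T hT => ?_
    exact isOfFinAddOrder_iff_nsmul_eq_zero.mpr ⟨_, by positivity, hT⟩

end Vale.Agent.P345
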