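import Vale.Agent.P345.Pow

namespace Vale.Agent.P345

open Finset

variable {α : Type}

lemma dig_sum {u : ℕ} {c : ℕ → ℕ} (N : ℕ) (hc : ∀ i < N, c i < u) :
    ∑ i ∈ range N, c i * u ^ i < u ^ N ∧
    ∀ k < N, (∑ i ∈ range N, c i * u ^ i) / u ^ k % u = c k := by
  induction N with
  | zero => simp
  | succ N ih =>
    obtain ⟨h1, h2⟩ := ih fun i hi => hc i (by omega)
    have h3 := hc N (by omega)
    have hu : 0 < u := by omega
    rw [sum_range_succ]
    refine ⟨by rw [pow_succ]; nlinarith [Nat.mul_le_mul_right (u ^ N) h3], fun k hk => ?_⟩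
    rcases (Nat.lt_succ_iff.mp hk).eq_or_lt with rfl | h
    · rw [Nat.add_mul_div_right _ _ (pow_pos hu _), Nat.div_eq_of_lt h1, zero_add,
        Nat.mod_eq_of_lt h3]
    · obtain ⟨d, rfl⟩ := Nat.exists_eq_add_of_lt h
      rw [show c (k + d + 1) * u ^ (k + d + 1) = (c (k + d + 1) * u ^ d * u) * u ^ k by ring,
        Nat.add_mul_div_right _ _ (pow_pos hu _), Nat.add_mul_mod_self_right, h2 k h]

lemma dig_ext {u : ℕ} (N : ℕ) : ∀ {c c' : ℕ}, c < u ^ N → c' < u ^ N →
    (∀ k < N, c / u ^ k % u = c' / u ^ k % u) → c = c' := by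
  induction N with
  | zero => intro c c' h h' _; simp at h h'; omega
  | succ N ih =>
    intro c c' h h' H
    have h0 := H 0 (by omega)
    simp only [pow_zero, Nat.div_one] at h0
    have h1 : c / u = c' / u := by
      refine ih (Nat.div_lt_of_lt_mul (by rwa [pow_succ'] at h))
        (Nat.div_lt_of_lt_mul (by rwa [pow_succ'] at h')) fun k hk => ?_
      rw [Nat.div_div_eq_div_mul, Nat.div_div_eq_div_mul, ← pow_succ']
      exact H _ (by omega)
    rw [← Nat.mod_add_div c u, h0, h1, Nat.mod_add_div]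

lemma choose_eq (n k : ℕ) (hk : k ≤ n) :
    n.choose k = (2 ^ (n + 1) + 1) ^ n / (2 ^ (n + 1)) ^ k % 2 ^ (n + 1) := by
  have h := (dig_sum (u := 2 ^ (n + 1)) (c := fun i => n.choose i) (n + 1) fun i _ =>
    (Nat.choose_le_two_pow n i).trans_lt (Nat.pow_lt_pow_right (by norm_num) (by omega))).2 k
    (by omega)
  rw [← h, add_pow]
  congr 2
  exact sum_congr rfl fun i _ => by simp [mul_comm]

/-- binary digit sum -/
def hw (n : ℕ) : ℕ := (Nat.digits 2 n).sum

lemma hw_zero : hw 0 = 0 := by simp [hw]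

lemma hw_bit (b n : ℕ) (hb : b < 2) : hw (b + 2 * n) = b + hw n := by
  by_cases h : b ≠ 0 ∨ n ≠ 0
  · unfold hw
    rw [Nat.digits_add 2 (by norm_num) b n hb h, List.sum_cons]
  · push Not at h
    simp [h.1, h.2]

lemma hw_add (k : ℕ) : ∀ a b : ℕ, a < 2 ^ k → hw (a + 2 ^ k * b) = hw a + hw b := by
  induction k with
  | zero =>
    intro a b h
    have : a = 0 := by simpa using h
    simp [this, hw_zero]
  | succ k ih =>
    intro a b h
    have h1 : a + 2 ^ (k + 1) * b = a % 2 + 2 * (a / 2 + 2 ^ k * b) := by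
      rw [pow_succ, mul_add, ← add_assoc, Nat.mod_add_div]; ring
    have h2 := hw_bit (a % 2) (a / 2) (Nat.mod_lt _ two_pos)
    rw [Nat.mod_add_div] at h2
    rw [h1, hw_bit _ _ (Nat.mod_lt _ two_pos), ih _ _ (by omega), h2, add_assoc]

lemma hw_compl (u : ℕ) : ∀ x y : ℕ, x + y + 1 = 2 ^ u → hw x + hw y = u := by
  induction u with
  | zero =>
    intro x y h
    have h1 : x = 0 := by omega
    have h2 : y = 0 := by omega
    simp [h1, h2, hw_zero]
  | succ u ih =>
    intro x y h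
    have h1 := hw_bit (x % 2) (x / 2) (Nat.mod_lt _ two_pos)
    have h2 := hw_bit (y % 2) (y / 2) (Nat.mod_lt _ two_pos)
    rw [Nat.mod_add_div] at h1 h2
    have := ih (x / 2) (y / 2) (by omega)
    omega

lemma hw_sum {ι : Type} [DecidableEq ι] (k : ℕ) (e d : ι → ℕ) (s : Finset ι)
    (he : Set.InjOn e s) (hd : ∀ x ∈ s, d x < 2 ^ k) :
    hw (∑ x ∈ s, (2 ^ k) ^ e x * d x) = ∑ x ∈ s, hw (d x) ∧
    ∀ N, (∀ x ∈ s, e x < N) → ∑ x ∈ s, (2 ^ k) ^ e x * d x < (2 ^ k) ^ N := by
  induction s using Finset.induction_on_max_value e with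
  | empty => simp [hw_zero]
  | insert a s ha hmax ih =>
    obtain ⟨h1, h2⟩ := ih (he.mono (by simp)) fun x hx => hd x (mem_insert_of_mem hx)
    have h3 := h2 (e a) fun x hx => lt_of_le_of_ne (hmax x hx) fun h => ha (by
      rw [← he (by simp [hx]) (by simp) h]; exact hx)
    rw [sum_insert ha, sum_insert ha]
    constructor
    · rw [add_comm, ← pow_mul, hw_add _ _ _ (by rwa [pow_mul]), h1, add_comm]
    · intro N hN
      have h4 := hd a (by simp)
      have h5 : (2 ^ k) ^ (e a + 1) ≤ (2 ^ k) ^ N :=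
        Nat.pow_le_pow_right (by positivity) (hN a (by simp))
      rw [pow_succ] at h5
      nlinarith [Nat.mul_le_mul_left ((2 ^ k) ^ e a) h4]

lemma hw_delta {u a : ℕ} (ha : a ≤ 2 ^ u) :
    (2 ^ u - 1) * (2 ^ u + 1 - a) < 2 ^ (2 * u) ∧
    hw ((2 ^ u - 1) * (2 ^ u + 1 - a)) = u + if a = 0 then u else 0 := by
  rw [two_mul, pow_add]
  rcases a with _ | a
  · obtain ⟨N, hN⟩ : ∃ N, 2 ^ u = N + 1 := ⟨2 ^ u - 1, by have := Nat.one_le_two_pow (n := u); omega⟩
    have h1 : (2 ^ u - 1) * (2 ^ u + 1 - 0) = N + 2 ^ u * N := by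
      rw [hN]; simp; ring
    have h2 := hw_compl u N 0 (by omega)
    rw [hw_zero] at h2
    rw [h1, hw_add _ _ _ (by omega)]
    exact ⟨by rw [hN]; nlinarith, by simp; omega⟩
  · obtain ⟨c, hc⟩ := Nat.exists_eq_add_of_le ha
    have h1 : (2 ^ u - 1) * (2 ^ u + 1 - (a + 1)) = a + 2 ^ u * c := by
      rw [hc, show a + 1 + c - 1 = a + c by omega, show a + 1 + c + 1 - (a + 1) = c + 1 by omega]
      ring
    rw [h1, hw_add _ _ _ (by omega)]
    exact ⟨by rw [hc]; nlinarith, by simpa using hw_compl u a c (by omega)⟩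

lemma hw_val (n : ℕ) : padicValNat 2 ((n + n).choose n) = hw n := by
  have h := sub_one_mul_padicValNat_choose_eq_sub_sum_digits' (p := 2) (k := n) (n := n)
  have h2 := hw_bit 0 n two_pos
  rw [zero_add, zero_add, two_mul] at h2
  unfold hw at h2 ⊢
  omega

theorem SFF.hw {f : (α → ℕ) → ℕ} (hf : SFF f) : SFF (fun v => hw (f v)) := by
  refine SFF.comp1 (F := P345.hw) ?_ hf
  have hn : SFF (fun u : Option (Fin 1) → ℕ => u (some 0) + u (some 0)) :=
    (SFF.proj _).add (SFF.proj _)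
  have hu := (SFF.const 2).pow (hn.add (SFF.const 1))
  have hC : SFF (fun u : Option (Fin 1) → ℕ => (u (some 0) + u (some 0)).choose (u (some 0))) :=
    ((((hu.add (SFF.const 1)).pow hn).div (hu.pow (SFF.proj (some 0)))).mod hu).congr
      fun u => choose_eq _ _ (by omega)
  have h1 := SFD.eq (hC.mod ((SFF.const 2).pow (SFF.proj none))) (SFF.const 0)
  have h2 := SFD.eq (hC.mod ((SFF.const 2).pow ((SFF.proj none).add (SFF.const 1)))) (SFF.const 0)
  refine (h1.and h2.not).sf.congr fun u => ?_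
  have h0 : (u (some 0) + u (some 0)).choose (u (some 0)) ≠ 0 :=
    (Nat.choose_pos (by omega)).ne'
  beta_reduce
  rw [← Nat.dvd_iff_mod_eq_zero, ← Nat.dvd_iff_mod_eq_zero, padicValNat_dvd_iff_le h0,
    padicValNat_dvd_iff_le h0, hw_val]
  omega

/-- generalized geometric sums -/
def geo (r q t : ℕ) : ℕ := ∑ j ∈ range t, j ^ r * q ^ j

lemma geo_rec (r q t : ℕ) :
    geo r q t + t ^ r * q ^ t = 0 ^ r + q * ∑ s ∈ range (r + 1), r.choose s * geo s q t := by
  induction t with
  | zero => simp [geo]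
  | succ t ih =>
    have h1 : ∀ s, geo s q (t + 1) = geo s q t + t ^ s * q ^ t := fun s => sum_range_succ _ _
    simp only [h1, mul_add, sum_add_distrib]
    rw [ih, add_assoc, add_pow, sum_mul, mul_sum, mul_sum]
    congr 2
    exact sum_congr rfl fun s _ => by simp; ring

theorem SFF.geo {q t : (α → ℕ) → ℕ} (hq : SFF q) (ht : SFF t) (h2 : ∀ v, 2 ≤ q v) (r : ℕ) :
    SFF (fun v => geo r (q v) (t v)) := by
  induction r using Nat.strong_induction_on with
  | _ r ih =>
    have hs : SFF (fun v => ∑ s : Fin r, r.choose s * P345.geo s (q v) (t v)) :=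
      SFF.sum _ fun s => (SFF.const _).mul (ih s s.2)
    refine ((((ht.npow r).mul (hq.pow ht)).sub ((SFF.const (0 ^ r)).add (hq.mul hs))).div
      (hq.sub (SFF.const 1))).congr fun v => ?_
    have h := geo_rec r (q v) (t v)
    rw [sum_range_succ, Nat.choose_self, one_mul, mul_add, sum_range] at h
    obtain ⟨c, hc⟩ : ∃ c, q v = c + 1 := ⟨q v - 1, by have := h2 v; omega⟩
    have hc0 : 0 < c := by have := h2 v; omega
    symm
    apply Nat.div_eq_of_eq_mul_right (by omega)
    rw [show q v - 1 = c by omega]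
    have h3 : q v * P345.geo r (q v) (t v) =
      c * P345.geo r (q v) (t v) + P345.geo r (q v) (t v) := by
        nth_rewrite 1 [hc]; ring
    omega

end Vale.Agent.P345
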