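import Vale.Agent.P345.Bound

namespace Vale.Agent.P345

open Pell

variable {α : Type}

lemma yn_lower {a : ℕ} (a1 : 1 < a) (m : ℕ) : 2 ^ m ≤ yn a1 (m + 1) := by
  induction m with
  | zero => simp
  | succ m ih =>
    rw [yn_succ, pow_succ]
    nlinarith [Nat.zero_le (xn a1 (m + 1))]

lemma yn_upper {a : ℕ} (a1 : 1 < a) (m : ℕ) : yn a1 m ≤ (2 * a) ^ m := by
  have key : ∀ m, yn a1 (m + 1) ≤ (2 * a) ^ m := by
    intro m
    induction m with
    | zero => simp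
    | succ m ih =>
      have := yn_succ_succ a1 m
      rw [pow_succ]
      nlinarith [Nat.zero_le (yn a1 m)]
  cases m with
  | zero => simp
  | succ m => exact (key m).trans (Nat.pow_le_pow_right (by omega) (by omega))

/-- the bounded Pell relation -/
def PRel (Gf : ℕ → ℕ) (a₀ a n x y : ℕ) : Prop :=
  a₀ ≤ a ∧ n + 1 < a ∧ x * x - (a * a - 1) * y * y = 1 ∧ y ≤ Gf a ∧ y % (a - 1) = n % (a - 1)

section
variable {Gf : ℕ → ℕ} {a₀ : ℕ}
  (H : ∀ a, a₀ ≤ a → (∀ k : ℕ, 2 ^ k ≤ a → (2 * a) ^ k ≤ Gf a) ∧ Gf a < 2 ^ (a - 2))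
include H

lemma PRel.eq {a n x y : ℕ} (a1 : 1 < a) (h : PRel Gf a₀ a n x y) :
    x = xn a1 n ∧ y = yn a1 n := by
  obtain ⟨h1, h2, h3, h4, h5⟩ := h
  obtain ⟨m, rfl, rfl⟩ := eq_pell a1 h3
  have hm : m < a - 1 := by
    cases m with
    | zero => omega
    | succ m =>
      have := (yn_lower a1 m).trans_lt (h4.trans_lt (H a h1).2)
      have := (Nat.pow_lt_pow_iff_right (by norm_num : 1 < 2)).mp this
      omega
  have h6 : m ≡ n [MOD a - 1] := (yn_modEq_a_sub_one a1 m).symm.trans h5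
  rw [Nat.ModEq.eq_of_lt_of_lt h6 hm (by omega)]
  exact ⟨rfl, rfl⟩

lemma PRel.of {a n : ℕ} (a1 : 1 < a) (h1 : a₀ ≤ a) (h2 : n + 1 < a) (h3 : 2 ^ n ≤ a) :
    PRel Gf a₀ a n (xn a1 n) (yn a1 n) :=
  ⟨h1, h2, pell_eq a1 n, (yn_upper a1 n).trans ((H a h1).1 n h3), yn_modEq_a_sub_one a1 n⟩

end

lemma PRel.sf {Gf : ℕ → ℕ} (hG : SFF (fun v : Fin 1 → ℕ => Gf (v 0))) (a₀ : ℕ)
    {a n x y : (α → ℕ) → ℕ} (ha : SFF a) (hn : SFF n) (hx : SFF x) (hy : SFF y) :
    SF (fun v => PRel Gf a₀ (a v) (n v) (x v) (y v)) :=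
  (SF.le (SFF.const _) ha).and ((SF.lt (hn.add (SFF.const _)) ha).and
    ((SF.eq ((hx.mul hx).sub ((((ha.mul ha).sub (SFF.const _)).mul hy).mul hy)) (SFF.const _)).and
    ((SF.le hy (hG.comp1 ha)).and
    (SF.eq (hy.mod (ha.sub (SFF.const _))) (hn.mod (ha.sub (SFF.const _)))))))

lemma pell_cong {a : ℕ} (a1 : 1 < a) {b : ℕ} (hb : 1 ≤ b) (hba : b < a) (n : ℕ) :
    a ≤ 2 * a * b - (b * b + 1) ∧
    xn a1 n ≡ yn a1 n * (a - b) + b ^ n [MOD (2 * a * b - (b * b + 1))] := by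
  have h1 : a + (b * b + 1) ≤ 2 * a * b := by nlinarith
  refine ⟨by omega, ?_⟩
  apply Nat.modEq_of_dvd
  have := x_sub_y_dvd_pow a1 b n
  rw [Nat.cast_sub (by omega), Nat.cast_add, Nat.cast_add, Nat.cast_mul (yn a1 n),
    Nat.cast_sub hba.le]
  convert this using 1
  · push_cast
    ring
  · rfl

theorem SFF.pow2 : SFF (fun v : Fin 2 → ℕ => (v 0 + 2) ^ v 1) := by
  obtain ⟨Gf, a₀, hG, -, H⟩ := exists_bound
  let A : (Option (Fin 2) → ℕ) → ℕ := fun u => u none + (u (some 0) + 2) + u (some 1) + a₀ + 2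
  let R : (Option (Fin 2) → ℕ) → (Fin 4 → ℕ) → Prop := fun u w =>
    PRel Gf a₀ (A u) (u (some 1)) (w 0) (w 1) ∧ PRel Gf a₀ (A u + w 0) (u (some 1)) (w 2) (w 3) ∧
      w 2 % (2 * (A u + w 0) * (u (some 0) + 2) - ((u (some 0) + 2) * (u (some 0) + 2) + 1)) =
      (w 3 * (A u + w 0 - (u (some 0) + 2)) + u none) %
        (2 * (A u + w 0) * (u (some 0) + 2) - ((u (some 0) + 2) * (u (some 0) + 2) + 1))
  have hA : SFF (fun u : Option (Fin 2) ⊕ Fin 4 → ℕ => A (fun a => u (.inl a))) :=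
    ((((SFF.proj _).add ((SFF.proj _).add (SFF.const _))).add (SFF.proj _)).add
      (SFF.const _)).add (SFF.const _)
  have hb : SFF (fun u : Option (Fin 2) ⊕ Fin 4 → ℕ => u (.inl (some 0)) + 2) :=
    (SFF.proj _).add (SFF.const _)
  have hA2 := hA.add (SFF.proj (.inr 0))
  have ht := (((SFF.const 2).mul hA2).mul hb).sub ((hb.mul hb).add (SFF.const 1))
  have hR : SF (fun u : Option (Fin 2) ⊕ Fin 4 → ℕ =>
      R (fun a => u (.inl a)) (fun b => u (.inr b))) :=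
    (PRel.sf hG a₀ hA (SFF.proj _) (SFF.proj _) (SFF.proj _)).and
      ((PRel.sf hG a₀ hA2 (SFF.proj _) (SFF.proj _) (SFF.proj _)).and
      (SF.eq ((SFF.proj _).mod ht) ((((SFF.proj _).mul (hA2.sub hb)).add (SFF.proj _)).mod ht)))
  have hA1 : ∀ u, 1 < A u := fun u => by simp only [A]; omega
  have hA1' : ∀ u x, 1 < A u + x := fun u x => by have := hA1 u; omega
  refine (SF.exu hR ?_).congr fun u => ?_
  · rintro u w w' ⟨a1, a2, -⟩ ⟨b1, b2, -⟩
    have c1 := a1.eq H (hA1 u)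
    have c2 := b1.eq H (hA1 u)
    have c3 : w 0 = w' 0 := c1.1.trans c2.1.symm
    rw [← c3] at b2
    have c4 := a2.eq H (hA1' u _)
    have c5 := b2.eq H (hA1' u _)
    funext i
    fin_cases i
    exacts [c3, c1.2.trans c2.2.symm, c4.1.trans c5.1.symm, c4.2.trans c5.2.symm]
  · beta_reduce
    constructor
    · intro h
      have h2 : 2 ^ u (some 1) ≤ u none := h ▸ Nat.pow_le_pow_left (by omega) _
      refine ⟨![xn (hA1 u) (u (some 1)), yn (hA1 u) (u (some 1)),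
        xn (hA1' u (xn (hA1 u) (u (some 1)))) (u (some 1)),
        yn (hA1' u (xn (hA1 u) (u (some 1)))) (u (some 1))],
        PRel.of H _ ?_ ?_ ?_, PRel.of H _ ?_ ?_ ?_, ?_⟩
      any_goals simp only [A]; omega
      rw [← h]
      exact (pell_cong (hA1' u _) (by omega) (by simp only [A]; omega) _).2
    · rintro ⟨w, a1, a2, a3⟩
      have c1 := a1.eq H (hA1 u)
      have c4 := a2.eq H (hA1' u _)
      obtain ⟨d1, d2⟩ := pell_cong (hA1' u (w 0)) (b := u (some 0) + 2) (by omega)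
        (by simp only [A]; omega) (u (some 1))
      rw [← c4.1, ← c4.2] at d2
      have d3 := (d2.symm.trans a3).add_left_cancel' _
      have d4 : (u (some 0) + 2) ^ u (some 1) ≤ w 0 := by
        rw [c1.1]
        exact (Nat.pow_le_pow_left (by simp only [A]; omega) _).trans (xn_ge_a_pow _ _)
      refine Nat.ModEq.eq_of_lt_of_lt d3 ?_ ?_
      · have := hA1 u; omega
      · refine lt_of_lt_of_le ?_ d1
        simp only [A]; omega

theorem SFF.pow {f g : (α → ℕ) → ℕ} (hf : SFF f) (hg : SFF g) : SFF (fun v => f v ^ g v) := by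
  have h2 := SFF.comp2 (F := fun a b => (a + 2) ^ b) SFF.pow2 (hf.sub (SFF.const 2)) hg
  refine (SFF.ite (SFD.le (SFF.const 2) hf) h2
    (SFF.ite (SFD.eq hg (SFF.const 0)) (SFF.const 1) hf)).congr fun v => ?_
  split_ifs with a b
  · rw [Nat.sub_add_cancel a]
  · rw [b, pow_zero]
  · have : f v = 0 ∨ f v = 1 := by omega
    rcases this with h | h <;> simp [h, b]

end Vale.Agent.P345
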