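import Vale.Agent.P345.Count

namespace Vale.Agent.P345

open Finset

variable {α : Type}

lemma SFF.left {f : (α → ℕ) → ℕ} (hf : SFF f) : SFF (fun v => (f v).unpair.1) := by
  refine SFF.comp1 (F := fun n => n.unpair.1) ?_ hf
  refine (SF.ex1 (R := fun y (u : Option (Fin 1) → ℕ) => Nat.pair (u none) y = u (some 0))
    (SF.eq ((SFF.proj _).pair (SFF.proj _)) (SFF.proj _)) ?_).congr fun u => ?_
  · intro u x y a b
    exact (Nat.pair_eq_pair.mp (a.trans b.symm)).2
  · beta_reduce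
    constructor
    · intro h
      exact ⟨(u (some 0)).unpair.2, by rw [← h, Nat.pair_unpair]⟩
    · rintro ⟨y, h⟩
      rw [← h, Nat.unpair_pair]

lemma SFF.right {f : (α → ℕ) → ℕ} (hf : SFF f) : SFF (fun v => (f v).unpair.2) := by
  refine SFF.comp1 (F := fun n => n.unpair.2) ?_ hf
  refine (SF.ex1 (R := fun y (u : Option (Fin 1) → ℕ) => Nat.pair y (u none) = u (some 0))
    (SF.eq ((SFF.proj _).pair (SFF.proj _)) (SFF.proj _)) ?_).congr fun u => ?_
  · intro u x y a b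
    exact (Nat.pair_eq_pair.mp (a.trans b.symm)).1
  · beta_reduce
    constructor
    · intro h
      exact ⟨(u (some 0)).unpair.1, by rw [← h, Nat.pair_unpair]⟩
    · rintro ⟨y, h⟩
      rw [← h, Nat.unpair_pair]

/-- digit extraction -/
def dig (c B i : ℕ) : ℕ := c / B ^ i % B

lemma SFF.digit {c B i : (α → ℕ) → ℕ} (hc : SFF c) (hB : SFF B) (hi : SFF i) :
    SFF (fun v => dig (c v) (B v) (i v)) := (hc.div (hB.pow hi)).mod hB

/-- the coded recursion -/
def Rec (f : ℕ → ℕ) (g : ℕ → ℕ → ℕ → ℕ) (z n y c d B : ℕ) : Prop :=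
  c < B ^ (n + 1) ∧ d < B ^ (n + 1) ∧ dig c B 0 = f z ∧ dig d B 0 = f z ∧
  (∀ i < n, dig c B (i + 1) = g z i (dig c B i) ∧ dig d B (i + 1) = dig d B i + dig c B (i + 1)) ∧
  B = dig d B n + 1 ∧ dig c B n = y

lemma Rec.spec {f : ℕ → ℕ} {g : ℕ → ℕ → ℕ → ℕ} {z n y c d B : ℕ} (h : Rec f g z n y c d B)
    (F : ℕ → ℕ) (h0 : F 0 = f z) (hs : ∀ i, F (i + 1) = g z i (F i)) :
    ∀ i < n + 1, dig c B i = F i ∧ dig d B i = ∑ j ∈ range (i + 1), F j := by
  obtain ⟨-, -, h1, h2, h3, -⟩ := h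
  intro i hi
  induction i with
  | zero => simp [h1, h2, h0]
  | succ i ih =>
    obtain ⟨a, b⟩ := ih (by omega)
    obtain ⟨a', b'⟩ := h3 i (by omega)
    rw [a, ← hs] at a'
    rw [sum_range_succ, b', a', b]
    exact ⟨rfl, rfl⟩

theorem SFF.prec {f : ℕ → ℕ} {g : ℕ → ℕ → ℕ → ℕ} (hf : SFF (fun v : Fin 1 → ℕ => f (v 0)))
    (hg : SFF (fun v : Fin 3 → ℕ => g (v 0) (v 1) (v 2))) :
    SFF (fun v : Fin 2 → ℕ => (v 1).rec (f (v 0)) fun y IH => g (v 0) y IH) := by
  let F : ℕ → ℕ → ℕ := fun z n => n.rec (f z) fun y IH => g z y IH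
  let R : (Option (Fin 2) → ℕ) → (Fin 3 → ℕ) → Prop := fun u w =>
    Rec f g (u (some 0)) (u (some 1)) (u none) (w 0) (w 1) (w 2)
  have hb : SF (fun u : Option (Fin 2) ⊕ Fin 3 → ℕ => ∀ i < u (.inl (some 1)),
      dig (u (.inr 0)) (u (.inr 2)) (i + 1) =
        g (u (.inl (some 0))) i (dig (u (.inr 0)) (u (.inr 2)) i) ∧
      dig (u (.inr 1)) (u (.inr 2)) (i + 1) =
        dig (u (.inr 1)) (u (.inr 2)) i + dig (u (.inr 0)) (u (.inr 2)) (i + 1)) := by
    have hi : SFF (fun u : Option (Option (Fin 2) ⊕ Fin 3) → ℕ => u none + 1) :=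
      (SFF.proj _).add (SFF.const 1)
    refine SF.ball ?_ (SFF.proj _)
    exact (SF.eq (SFF.digit (SFF.proj _) (SFF.proj _) hi) (hg.comp3 (SFF.proj _) (SFF.proj _)
      (SFF.digit (SFF.proj _) (SFF.proj _) (SFF.proj _)))).and
      (SF.eq (SFF.digit (SFF.proj _) (SFF.proj _) hi)
        ((SFF.digit (SFF.proj _) (SFF.proj _) (SFF.proj _)).add
        (SFF.digit (SFF.proj _) (SFF.proj _) hi)))
  have hp : SFF (fun u : Option (Fin 2) ⊕ Fin 3 → ℕ => u (.inr 2) ^ (u (.inl (some 1)) + 1)) :=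
    (SFF.proj _).pow ((SFF.proj _).add (SFF.const 1))
  have hR : SF (fun u : Option (Fin 2) ⊕ Fin 3 → ℕ =>
      R (fun a => u (.inl a)) (fun b => u (.inr b))) :=
    (SF.lt (SFF.proj _) hp).and ((SF.lt (SFF.proj _) hp).and
    ((SF.eq (SFF.digit (SFF.proj _) (SFF.proj _) (SFF.const 0)) (hf.comp1 (SFF.proj _))).and
    ((SF.eq (SFF.digit (SFF.proj _) (SFF.proj _) (SFF.const 0)) (hf.comp1 (SFF.proj _))).and
    (hb.and ((SF.eq (SFF.proj _) ((SFF.digit (SFF.proj _) (SFF.proj _) (SFF.proj _)).add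
      (SFF.const 1))).and
    (SF.eq (SFF.digit (SFF.proj _) (SFF.proj _) (SFF.proj _)) (SFF.proj _)))))))
  refine (SF.exu hR ?_).congr fun u => ?_
  · intro u w w' a b
    have a1 := Rec.spec a (F (u (some 0))) rfl (fun _ => rfl)
    have b1 := Rec.spec b (F (u (some 0))) rfl (fun _ => rfl)
    have h2 : w 2 = w' 2 := by
      rw [a.2.2.2.2.2.1, b.2.2.2.2.2.1, (a1 _ (Nat.lt_succ_self _)).2,
        (b1 _ (Nat.lt_succ_self _)).2]
    have b2 := b.1
    have b3 := b.2.1
    rw [← h2] at b1 b2 b3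
    funext i
    fin_cases i
    · exact dig_ext _ a.1 b2 fun k hk => (a1 k hk).1.trans (b1 k hk).1.symm
    · exact dig_ext _ a.2.1 b3 fun k hk => (a1 k hk).2.trans (b1 k hk).2.symm
    · exact h2
  · constructor
    · intro h
      set z := u (some 0)
      set n := u (some 1)
      let S : ℕ → ℕ := fun i => ∑ j ∈ range (i + 1), F z j
      have hS : ∀ i < n + 1, S i < S n + 1 := fun i hi =>
        Nat.lt_succ_of_le (sum_le_sum_of_subset (range_mono (by omega)))
      have hF : ∀ i < n + 1, F z i < S n + 1 := fun i hi =>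
        Nat.lt_succ_of_le (single_le_sum (f := F z) (fun _ _ => Nat.zero_le _) (mem_range.mpr hi))
      obtain ⟨c1, c2⟩ := dig_sum (n + 1) hF
      obtain ⟨d1, d2⟩ := dig_sum (n + 1) hS
      refine ⟨![_, _, S n + 1], c1, d1, c2 0 (by omega), ?_, fun i hi => ?_, ?_, ?_⟩
      · exact (d2 0 (by omega)).trans (sum_range_one _)
      · have e1 := c2 i (by omega)
        have e2 := c2 (i + 1) (by omega)
        have e3 := d2 i (by omega)
        have e4 := d2 (i + 1) (by omega)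
        refine ⟨e2.trans (congrArg (g z i) e1.symm), e4.trans ?_⟩
        exact (sum_range_succ _ _).trans (congrArg₂ _ e3.symm e2.symm)
      · exact congrArg (· + 1) (d2 n (by omega)).symm
      · exact (c2 n (by omega)).trans h
    · rintro ⟨w, a⟩
      exact (Rec.spec a (F (u (some 0))) rfl (fun _ => rfl) _ (Nat.lt_succ_self _)).1.symm.trans
        a.2.2.2.2.2.2

theorem SFF.primrec {f : ℕ → ℕ} (hf : Nat.Primrec f) : SFF (fun v : Fin 1 → ℕ => f (v 0)) := by
  induction hf with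
  | zero => exact SFF.const 0
  | succ => exact (SFF.proj 0).add (SFF.const 1)
  | left => exact (SFF.proj 0).left
  | right => exact (SFF.proj 0).right
  | pair _ _ h1 h2 => exact h1.pair h2
  | comp _ _ h1 h2 => exact h1.comp1 h2
  | @prec f g _ _ h1 h2 =>
    have h3 := SFF.prec (g := fun z y IH => g (Nat.pair z (Nat.pair y IH))) h1
      (h2.comp1 ((SFF.proj 0).pair ((SFF.proj 1).pair (SFF.proj 2))))
    exact SFF.comp2 (F := fun z n => n.rec (f z) fun y IH => g (Nat.pair z (Nat.pair y IH))) h3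
      (SFF.proj (0 : Fin 1)).left (SFF.proj 0).right

lemma SFF.encode_list (l : List α) :
    SFF (fun v : α → ℕ => Encodable.encode (l.map v)) := by
  induction l with
  | nil => exact SFF.const 0
  | cons a l ih => exact ((SFF.proj a).pair ih).add (SFF.const 1)

/-- the encoding used by computability on tuples -/
def enc {n : ℕ} (v : Fin n → ℕ) : ℕ := @Encodable.encode _ Primcodable.finArrow.toEncodable v

lemma SFF.enc (n : ℕ) : SFF (fun v : Fin n → ℕ => enc v) := by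
  refine (SFF.encode_list (List.finRange n)).congr fun v => ?_
  rw [← List.ofFn_eq_map, ← List.Vector.toList_ofFn]
  rfl

open Nat.Partrec.Code in
theorem SF.re {n : ℕ} {S : (Fin n → ℕ) → Prop} (hS : REPred S) : SF S := by
  obtain ⟨c, hc⟩ := exists_code.mp hS
  have h1 : Primrec fun m : ℕ => Encodable.encode (evaln m.unpair.1 c m.unpair.2) :=
    Primrec.encode.comp (primrec_evaln.comp
      (((Primrec.fst.comp Primrec.unpair).pair (Primrec.const c)).pair
      (Primrec.snd.comp Primrec.unpair)))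
  have h2 := SFF.primrec (Primrec.nat_iff.mp h1)
  let G : ℕ → (Fin n → ℕ) → Prop := fun k v => ¬ Encodable.encode (evaln k c (enc v)) = 0
  have hG : ∀ k v, G k v ↔ ∃ x, x ∈ evaln k c (enc v) := by
    intro k v
    simp only [G]
    cases evaln k c (enc v) <;> simp
  have h3 : ∀ {k : (Option (Fin n) → ℕ) → ℕ}, SFF k →
      SFD (fun u : Option (Fin n) → ℕ => G (k u) (fun a => u (some a))) := fun hk =>
    (SFD.eq (SFF.comp1 (F := fun m => Encodable.encode (evaln m.unpair.1 c m.unpair.2)) h2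
      (hk.pair ((SFF.enc n).reindex some))) (SFF.const 0)).not.congr
      fun u => by simp only [G, Nat.unpair_pair]
  have hmono : ∀ {k k' v}, k ≤ k' → G k v → G k' v := fun hk h =>
    let ⟨x, hx⟩ := (hG _ _).mp h
    (hG _ _).mpr ⟨x, evaln_mono hk hx⟩
  have h4 := ((h3 (SFF.proj none)).and ((SFD.eq (SFF.proj none) (SFF.const 0)).or
    (h3 ((SFF.proj none).sub (SFF.const 1))).not)).sf
  refine (SF.ex1 (R := fun k v => G k v ∧ (k = 0 ∨ ¬ G (k - 1) v)) h4 ?_).congr fun v => ?_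
  · rintro v t t' ⟨a1, a2⟩ ⟨b1, b2⟩
    by_contra hne
    rcases lt_or_gt_of_ne hne with h | h
    · exact b2.elim (by omega) fun b => b (hmono (by omega) a1)
    · exact a2.elim (by omega) fun b => b (hmono (by omega) b1)
  · have h5 : S v ↔ ∃ k, G k v := by
      simp only [hG]
      rw [exists_comm]
      simp only [← evaln_complete, hc]
      simp [Part.mem_assert_iff, enc]
    rw [h5]
    constructor
    · intro hex
      classical
      refine ⟨Nat.find hex, Nat.find_spec hex, ?_⟩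
      rcases Nat.eq_zero_or_pos (Nat.find hex) with h0 | h0
      · exact Or.inl h0
      · exact Or.inr (Nat.find_min hex (by omega))
    · rintro ⟨k, hk, -⟩
      exact ⟨k, hk⟩

theorem SF.mv {S : (α → ℕ) → Prop} (h : SF S) :
    ∃ (m : ℕ) (P : MvPolynomial (α ⊕ Fin m) ℤ), ∀ a : α → ℕ,
      (S a ↔ ∃ w : Fin m → ℕ, MvPolynomial.eval (fun i => ((Sum.elim a w i : ℕ) : ℤ)) P = 0) ∧
      ∀ w w' : Fin m → ℕ, MvPolynomial.eval (fun i => ((Sum.elim a w i : ℕ) : ℤ)) P = 0 →
        MvPolynomial.eval (fun i => ((Sum.elim a w' i : ℕ) : ℤ)) P = 0 → w = w' := by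
  obtain ⟨β, _, p, hp, H⟩ := h
  obtain ⟨m, ⟨e⟩⟩ := Finite.exists_equiv_fin β
  obtain ⟨P, hP⟩ := isPoly_mv (isPoly_comp hp (Sum.map id e : α ⊕ β → α ⊕ Fin m))
  have key : ∀ a w, MvPolynomial.eval (fun i => ((Sum.elim a w i : ℕ) : ℤ)) P =
      p a (fun b => w (e b)) := fun a w => hP (Sum.elim a w)
  refine ⟨m, P, fun a => ?_⟩
  simp only [key]
  refine ⟨(H a).1.trans ⟨fun ⟨w, hw⟩ => ⟨fun i => w (e.symm i), by simpa using hw⟩,
    fun ⟨w, hw⟩ => ⟨_, hw⟩⟩, fun w w' h h' => ?_⟩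
  funext i
  simpa using congrFun ((H a).2 _ _ h h') (e.symm i)

end Vale.Agent.P345
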