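import Mathlib

namespace Vale.Agent.P345

variable {α γ : Type}

lemma isPoly_comp {f : (α → ℕ) → ℤ} (hf : IsPoly f) (g : α → γ) :
    IsPoly (fun v : γ → ℕ => f (fun a => v (g a))) := by
  induction hf with
  | proj i => exact IsPoly.proj (g i)
  | const n => exact IsPoly.const n
  | sub _ _ h1 h2 => exact IsPoly.sub h1 h2
  | mul _ _ h1 h2 => exact IsPoly.mul h1 h2

lemma isPoly_add {f g : (α → ℕ) → ℤ} (hf : IsPoly f) (hg : IsPoly g) :
    IsPoly (fun v => f v + g v) := hf.add hg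

lemma isPoly_sum {ι : Type} (s : Finset ι) {f : ι → (α → ℕ) → ℤ} (hf : ∀ i, IsPoly (f i)) :
    IsPoly (fun v => ∑ i ∈ s, f i v) := by
  classical
  induction s using Finset.induction_on with
  | empty => simpa using IsPoly.const 0
  | insert a s ha ih =>
    simp_rw [Finset.sum_insert ha]
    exact isPoly_add (hf a) ih

/-- single-fold Diophantine predicates -/
def SF (S : (α → ℕ) → Prop) : Prop :=
  ∃ (β : Type) (_ : Finite β) (p : (α → ℕ) → (β → ℕ) → ℤ),
    IsPoly (fun u : α ⊕ β → ℕ => p (fun a => u (.inl a)) (fun b => u (.inr b))) ∧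
    ∀ v, (S v ↔ ∃ w, p v w = 0) ∧ ∀ w w', p v w = 0 → p v w' = 0 → w = w'

lemma SF.of_poly {p : (α → ℕ) → ℤ} (hp : IsPoly p) : SF (fun v => p v = 0) :=
  ⟨Empty, inferInstance, fun v _ => p v, isPoly_comp hp _, fun _ =>
    ⟨⟨fun h => ⟨Empty.elim, h⟩, fun ⟨_, h⟩ => h⟩, fun _ _ _ _ => Subsingleton.elim _ _⟩⟩

lemma SF.congr {S T : (α → ℕ) → Prop} (h : SF S) (H : ∀ v, T v ↔ S v) : SF T := by
  rwa [show T = S from funext fun v => propext (H v)]

lemma SF.reindex {S : (α → ℕ) → Prop} (h : SF S) (g : α → γ) :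
    SF (fun v : γ → ℕ => S (fun a => v (g a))) := by
  obtain ⟨β, _, p, hp, H⟩ := h
  exact ⟨β, inferInstance, fun v w => p (fun a => v (g a)) w, isPoly_comp hp (Sum.map g id),
    fun v => H _⟩

lemma SF.and {S T : (α → ℕ) → Prop} (hS : SF S) (hT : SF T) : SF (fun v => S v ∧ T v) := by
  obtain ⟨β, _, p, hp, H⟩ := hS
  obtain ⟨β', _, q, hq, H'⟩ := hT
  have hp' := isPoly_comp hp (Sum.map id Sum.inl : α ⊕ β → α ⊕ (β ⊕ β'))
  have hq' := isPoly_comp hq (Sum.map id Sum.inr : α ⊕ β' → α ⊕ (β ⊕ β'))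
  have key : ∀ a b : ℤ, a * a + b * b = 0 ↔ a = 0 ∧ b = 0 := fun a b => mul_self_add_mul_self_eq_zero
  refine ⟨β ⊕ β', inferInstance, fun v w => p v (fun b => w (.inl b)) * p v (fun b => w (.inl b)) +
    q v (fun b => w (.inr b)) * q v (fun b => w (.inr b)),
    isPoly_add (hp'.mul hp') (hq'.mul hq'), fun v => ⟨?_, ?_⟩⟩
  · simp only [key]
    rw [(H v).1, (H' v).1]
    exact ⟨fun ⟨⟨w, hw⟩, ⟨w', hw'⟩⟩ => ⟨Sum.elim w w', hw, hw'⟩,
      fun ⟨w, hw, hw'⟩ => ⟨⟨_, hw⟩, ⟨_, hw'⟩⟩⟩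
  · intro w w' h h'
    simp only [key] at h h'
    have a1 := (H v).2 _ _ h.1 h'.1
    have a2 := (H' v).2 _ _ h.2 h'.2
    funext b
    cases b with
    | inl b => exact congrFun a1 b
    | inr b => exact congrFun a2 b

lemma SF.or {S T : (α → ℕ) → Prop} (hS : SF S) (hT : SF T) (hd : ∀ v, S v → T v → False) :
    SF (fun v => S v ∨ T v) := by
  obtain ⟨β, _, p, hp, H⟩ := hS
  obtain ⟨β', _, q, hq, H'⟩ := hT
  have := Fintype.ofFinite β
  have := Fintype.ofFinite β'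
  have hp' := isPoly_comp hp (Sum.map id Sum.inl : α ⊕ β → α ⊕ (β ⊕ β'))
  have hq' := isPoly_comp hq (Sum.map id Sum.inr : α ⊕ β' → α ⊕ (β ⊕ β'))
  have key : ∀ {δ : Type} [Fintype δ] (a : ℤ) (w : δ → ℕ),
      a * a + ∑ b, (w b : ℤ) = 0 ↔ a = 0 ∧ w = 0 := by
    intro δ _ a w
    have h1 : (0 : ℤ) ≤ ∑ b, (w b : ℤ) := Finset.sum_nonneg fun _ _ => Int.natCast_nonneg _
    rw [add_eq_zero_iff_of_nonneg (mul_self_nonneg a) h1, mul_self_eq_zero,
      Finset.sum_eq_zero_iff_of_nonneg fun _ _ => Int.natCast_nonneg _]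
    simp [funext_iff]
  refine ⟨β ⊕ β', inferInstance, fun v w =>
    (p v (fun b => w (.inl b)) * p v (fun b => w (.inl b)) + ∑ b, (w (.inr b) : ℤ)) *
    (q v (fun b => w (.inr b)) * q v (fun b => w (.inr b)) + ∑ b, (w (.inl b) : ℤ)),
    (isPoly_add (hp'.mul hp') (isPoly_sum _ fun b => IsPoly.proj _)).mul
    (isPoly_add (hq'.mul hq') (isPoly_sum _ fun b => IsPoly.proj _)), fun v => ⟨?_, ?_⟩⟩
  · simp only [mul_eq_zero (a := _ + _), key]
    rw [(H v).1, (H' v).1]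
    constructor
    · rintro (⟨w, hw⟩ | ⟨w, hw⟩)
      · exact ⟨Sum.elim w 0, Or.inl ⟨hw, rfl⟩⟩
      · exact ⟨Sum.elim 0 w, Or.inr ⟨hw, rfl⟩⟩
    · rintro ⟨w, hw | hw⟩
      · exact Or.inl ⟨_, hw.1⟩
      · exact Or.inr ⟨_, hw.1⟩
  · intro w w' h h'
    simp only [mul_eq_zero (a := _ + _), key] at h h'
    rcases h with h | h <;> rcases h' with h' | h'
    · have a1 := (H v).2 _ _ h.1 h'.1
      funext b
      cases b with
      | inl b => exact congrFun a1 b
      | inr b => exact (congrFun h.2 b).trans (congrFun h'.2 b).symm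
    · exact (hd v ((H v).1.mpr ⟨_, h.1⟩) ((H' v).1.mpr ⟨_, h'.1⟩)).elim
    · exact (hd v ((H v).1.mpr ⟨_, h'.1⟩) ((H' v).1.mpr ⟨_, h.1⟩)).elim
    · have a1 := (H' v).2 _ _ h.1 h'.1
      funext b
      cases b with
      | inl b => exact (congrFun h.2 b).trans (congrFun h'.2 b).symm
      | inr b => exact congrFun a1 b

lemma SF.exu {δ : Type} [Finite δ] {R : (α → ℕ) → (δ → ℕ) → Prop}
    (h : SF (fun u : α ⊕ δ → ℕ => R (fun a => u (.inl a)) (fun b => u (.inr b))))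
    (hu : ∀ v w w', R v w → R v w' → w = w') : SF (fun v => ∃ w, R v w) := by
  obtain ⟨β, _, p, hp, H⟩ := h
  have hp' := isPoly_comp hp (Sum.elim (Sum.elim Sum.inl (fun d => Sum.inr (Sum.inl d)))
    (fun b => Sum.inr (Sum.inr b)) : (α ⊕ δ) ⊕ β → α ⊕ (δ ⊕ β))
  refine ⟨δ ⊕ β, inferInstance, fun v w => p (Sum.elim v (fun d => w (.inl d)))
    (fun b => w (.inr b)), ?_, fun v => ⟨?_, ?_⟩⟩
  · convert hp' using 3 with u
    · funext a; cases a <;> rfl
    · rfl
  · constructor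
    · rintro ⟨w, hw⟩
      obtain ⟨w', hw'⟩ := (H (Sum.elim v w)).1.mp hw
      exact ⟨Sum.elim w w', hw'⟩
    · rintro ⟨w, hw⟩
      exact ⟨_, (H (Sum.elim v _)).1.mpr ⟨_, hw⟩⟩
  · intro w w' h h'
    have a1 : (fun d => w (.inl d)) = fun d => w' (.inl d) :=
      hu v _ _ ((H (Sum.elim v _)).1.mpr ⟨_, h⟩) ((H (Sum.elim v _)).1.mpr ⟨_, h'⟩)
    simp only at h h'
    rw [a1] at h
    have a2 := (H _).2 _ _ h h'
    funext b
    cases b with
    | inl b => exact congrFun a1 b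
    | inr b => exact congrFun a2 b

lemma SF.ex1 {R : ℕ → (α → ℕ) → Prop}
    (h : SF (fun u : Option α → ℕ => R (u none) (fun a => u (some a))))
    (hu : ∀ v x x', R x v → R x' v → x = x') : SF (fun v => ∃ x, R x v) := by
  have h1 := h.reindex (γ := α ⊕ Unit) (fun o => o.elim (Sum.inr ()) Sum.inl)
  have h2 := SF.exu (δ := Unit) (R := fun v w => R (w ()) v) h1
    (fun v w w' a b => funext fun _ => hu v _ _ a b)
  exact h2.congr fun v => ⟨fun ⟨x, hx⟩ => ⟨fun _ => x, hx⟩, fun ⟨w, hw⟩ => ⟨_, hw⟩⟩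

lemma SF.true : SF (fun _ : α → ℕ => True) :=
  (SF.of_poly (IsPoly.const 0)).congr fun _ => by simp

lemma SF.false : SF (fun _ : α → ℕ => False) :=
  (SF.of_poly (IsPoly.const 1)).congr fun _ => by simp

lemma SF.forall_finset {ι : Type} (s : Finset ι) {S : ι → (α → ℕ) → Prop} (h : ∀ i, SF (S i)) :
    SF (fun v => ∀ i ∈ s, S i v) := by
  classical
  induction s using Finset.induction_on with
  | empty => exact SF.true.congr fun _ => by simp
  | insert a s _ ih => exact ((h a).and ih).congr fun _ => by simp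

lemma SF.forall {ι : Type} [Finite ι] {S : ι → (α → ℕ) → Prop} (h : ∀ i, SF (S i)) :
    SF (fun v => ∀ i, S i v) := by
  have := Fintype.ofFinite ι
  exact (SF.forall_finset Finset.univ h).congr fun _ => by simp

/-- functions with single-fold Diophantine graph -/
def SFF (f : (α → ℕ) → ℕ) : Prop :=
  SF (fun u : Option α → ℕ => f (fun a => u (some a)) = u none)

lemma SFF.congr {f g : (α → ℕ) → ℕ} (h : SFF f) (H : ∀ v, g v = f v) : SFF g := by
  rwa [show g = f from funext H]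

lemma SFF.reindex {f : (α → ℕ) → ℕ} (h : SFF f) (g : α → γ) :
    SFF (fun v : γ → ℕ => f (fun a => v (g a))) :=
  SF.reindex h (Option.map g)

lemma SFF.of_poly {f : (α → ℕ) → ℕ} (hp : IsPoly (fun v => (f v : ℤ))) : SFF f :=
  (SF.of_poly ((isPoly_comp hp some).sub (IsPoly.proj none))).congr fun _ => by
    rw [sub_eq_zero, Nat.cast_inj]

lemma SFF.proj (i : α) : SFF (fun v : α → ℕ => v i) := SFF.of_poly (IsPoly.proj i)

lemma SFF.const (c : ℕ) : SFF (fun _ : α → ℕ => c) := SFF.of_poly (IsPoly.const c)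

lemma SF.subst {δ : Type} [Finite δ] {S : (δ → ℕ) → Prop} (h : SF S) {g : δ → (α → ℕ) → ℕ}
    (hg : ∀ i, SFF (g i)) : SF (fun v => S (fun i => g i v)) := by
  have h1 : SF (fun u : α ⊕ δ → ℕ => (∀ i, g i (fun a => u (.inl a)) = u (.inr i)) ∧
      S (fun b => u (.inr b))) :=
    (SF.forall fun i => SF.reindex (hg i) (fun o => o.elim (Sum.inr i) Sum.inl)).and
      (h.reindex Sum.inr)
  refine (SF.exu (R := fun v w => (∀ i, g i v = w i) ∧ S w) h1 ?_).congr fun v => ?_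
  · intro v w w' a b
    exact funext fun i => (a.1 i).symm.trans (b.1 i)
  · exact ⟨fun a => ⟨_, fun _ => rfl, a⟩, fun ⟨w, a, b⟩ => by rwa [funext a]⟩

lemma SFF.subst {δ : Type} [Finite δ] {F : (δ → ℕ) → ℕ} (h : SFF F) {g : δ → (α → ℕ) → ℕ}
    (hg : ∀ i, SFF (g i)) : SFF (fun v => F (fun i => g i v)) := by
  have := SF.subst (α := Option α) h
    (g := fun o u => o.elim (u none) (fun i => g i (fun a => u (some a)))) (fun o => by
      cases o with
      | none => exact SFF.proj none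
      | some i => exact (hg i).reindex some)
  exact this

section comp
variable {f g k l m : (α → ℕ) → ℕ}

lemma SFF.comp1 {F : ℕ → ℕ} (h : SFF (fun v : Fin 1 → ℕ => F (v 0))) (hf : SFF f) :
    SFF (fun v => F (f v)) :=
  h.subst (g := ![f]) (fun i => by fin_cases i; exact hf)

lemma SFF.comp2 {F : ℕ → ℕ → ℕ} (h : SFF (fun v : Fin 2 → ℕ => F (v 0) (v 1))) (hf : SFF f)
    (hg : SFF g) : SFF (fun v => F (f v) (g v)) :=
  h.subst (g := ![f, g]) (fun i => by fin_cases i; exacts [hf, hg])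

lemma SFF.comp3 {F : ℕ → ℕ → ℕ → ℕ} (h : SFF (fun v : Fin 3 → ℕ => F (v 0) (v 1) (v 2)))
    (hf : SFF f) (hg : SFF g) (hk : SFF k) : SFF (fun v => F (f v) (g v) (k v)) :=
  h.subst (g := ![f, g, k]) (fun i => by fin_cases i; exacts [hf, hg, hk])

lemma SFF.comp4 {F : ℕ → ℕ → ℕ → ℕ → ℕ}
    (h : SFF (fun v : Fin 4 → ℕ => F (v 0) (v 1) (v 2) (v 3)))
    (hf : SFF f) (hg : SFF g) (hk : SFF k) (hl : SFF l) :
    SFF (fun v => F (f v) (g v) (k v) (l v)) :=
  h.subst (g := ![f, g, k, l]) (fun i => by fin_cases i; exacts [hf, hg, hk, hl])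

lemma SF.comp2 {F : ℕ → ℕ → Prop} (h : SF (fun v : Fin 2 → ℕ => F (v 0) (v 1))) (hf : SFF f)
    (hg : SFF g) : SF (fun v => F (f v) (g v)) :=
  h.subst (g := ![f, g]) (fun i => by fin_cases i; exacts [hf, hg])

lemma SF.comp4 {F : ℕ → ℕ → ℕ → ℕ → Prop}
    (h : SF (fun v : Fin 4 → ℕ => F (v 0) (v 1) (v 2) (v 3)))
    (hf : SFF f) (hg : SFF g) (hk : SFF k) (hl : SFF l) :
    SF (fun v => F (f v) (g v) (k v) (l v)) :=
  h.subst (g := ![f, g, k, l]) (fun i => by fin_cases i; exacts [hf, hg, hk, hl])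

lemma SFF.add (hf : SFF f) (hg : SFF g) : SFF (fun v => f v + g v) :=
  SFF.comp2 (F := fun a b => a + b) (SFF.of_poly (by
    simpa using isPoly_add (IsPoly.proj (0 : Fin 2)) (IsPoly.proj 1))) hf hg

lemma SFF.mul (hf : SFF f) (hg : SFF g) : SFF (fun v => f v * g v) :=
  SFF.comp2 (F := fun a b => a * b) (SFF.of_poly (by
    simpa using IsPoly.mul (IsPoly.proj (0 : Fin 2)) (IsPoly.proj 1))) hf hg

lemma SF.eq (hf : SFF f) (hg : SFF g) : SF (fun v => f v = g v) :=
  SF.comp2 (F := fun a b => a = b)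
    ((SF.of_poly ((IsPoly.proj (0 : Fin 2)).sub (IsPoly.proj 1))).congr fun _ => by
      rw [sub_eq_zero, Nat.cast_inj]) hf hg

lemma SF.le (hf : SFF f) (hg : SFF g) : SF (fun v => f v ≤ g v) :=
  SF.comp2 (F := fun a b => a ≤ b)
    ((SF.ex1 (R := fun x (v : Fin 2 → ℕ) => v 0 + x = v 1)
      (SF.eq ((SFF.proj _).add (SFF.proj _)) (SFF.proj _)) (fun _ _ _ a b => by omega)).congr
      fun _ => le_iff_exists_add.trans (by simp only [eq_comm])) hf hg

lemma SF.lt (hf : SFF f) (hg : SFF g) : SF (fun v => f v < g v) :=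
  SF.le (hf.add (SFF.const 1)) hg

end comp

/-- predicates that are single-fold Diophantine together with their negations -/
def SFD (S : (α → ℕ) → Prop) : Prop := SF S ∧ SF (fun v => ¬ S v)

section dec
variable {S T : (α → ℕ) → Prop} {f g k : (α → ℕ) → ℕ}

lemma SFD.sf (h : SFD S) : SF S := h.1

lemma SFD.congr (h : SFD S) (H : ∀ v, T v ↔ S v) : SFD T := by
  rwa [show T = S from funext fun v => propext (H v)]

lemma SFD.reindex (h : SFD S) (g : α → γ) : SFD (fun v : γ → ℕ => S (fun a => v (g a))) :=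
  ⟨h.1.reindex g, h.2.reindex g⟩

lemma SFD.not (h : SFD S) : SFD (fun v => ¬ S v) := ⟨h.2, h.1.congr fun _ => not_not⟩

lemma SFD.and (h : SFD S) (h' : SFD T) : SFD (fun v => S v ∧ T v) :=
  ⟨h.1.and h'.1, (h.2.or (h.1.and h'.2) fun _ a b => a b.1).congr fun _ => by tauto⟩

lemma SFD.or (h : SFD S) (h' : SFD T) : SFD (fun v => S v ∨ T v) :=
  (h.not.and h'.not).not.congr fun _ => by tauto

lemma SFD.le (hf : SFF f) (hg : SFF g) : SFD (fun v => f v ≤ g v) :=
  ⟨SF.le hf hg, (SF.lt hg hf).congr fun _ => not_le⟩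

lemma SFD.lt (hf : SFF f) (hg : SFF g) : SFD (fun v => f v < g v) :=
  ⟨SF.lt hf hg, (SF.le hg hf).congr fun _ => not_lt⟩

lemma SFD.eq (hf : SFF f) (hg : SFF g) : SFD (fun v => f v = g v) :=
  ((SFD.le hf hg).and (SFD.le hg hf)).congr fun _ => le_antisymm_iff

lemma SFD.const (p : Prop) : SFD (fun _ : α → ℕ => p) := by
  by_cases h : p
  · exact ⟨SF.true.congr fun _ => by simp [h], SF.false.congr fun _ => by simp [h]⟩
  · exact ⟨SF.false.congr fun _ => by simp [h], SF.true.congr fun _ => by simp [h]⟩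

lemma SFF.ite [∀ v, Decidable (S v)] (h : SFD S) (hf : SFF f) (hg : SFF g) :
    SFF (fun v => if S v then f v else g v) :=
  (((h.1.reindex some).and hf).or ((h.2.reindex some).and hg) fun _ a b => b.1 a.1).congr
    fun u => by beta_reduce; split_ifs with h <;> simp [h]

lemma SFF.sub (hf : SFF f) (hg : SFF g) : SFF (fun v => f v - g v) := by
  refine SFF.comp2 (F := fun a b => a - b) ?_ hf hg
  refine SF.congr (SF.or (S := fun u => u (some 1) + u none = u (some 0))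
    (T := fun u => u (some 0) < u (some 1) ∧ u none = 0)
    (SF.eq ((SFF.proj _).add (SFF.proj _)) (SFF.proj _))
    ((SF.lt (SFF.proj _) (SFF.proj _)).and (SF.eq (SFF.proj _) (SFF.const _)))
    (fun _ a b => by omega)) fun u => by beta_reduce; omega

lemma SFF.div (hf : SFF f) (hg : SFF g) : SFF (fun v => f v / g v) := by
  refine SFF.comp2 (F := fun a b => a / b) ?_ hf hg
  refine SF.congr (SF.or (S := fun u => u (some 1) = 0 ∧ u none = 0)
    (T := fun u => u none * u (some 1) ≤ u (some 0) ∧ u (some 0) < (u none + 1) * u (some 1))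
    ((SF.eq (SFF.proj _) (SFF.const _)).and (SF.eq (SFF.proj _) (SFF.const _)))
    ((SF.le ((SFF.proj _).mul (SFF.proj _)) (SFF.proj _)).and
      (SF.lt (SFF.proj _) (((SFF.proj _).add (SFF.const _)).mul (SFF.proj _))))
    (fun _ a b => by rw [a.1] at b; omega)) fun u => ?_
  beta_reduce
  rcases Nat.eq_zero_or_pos (u (some 1)) with h | h
  · simp [h, eq_comm]
  · rw [Nat.div_eq_iff h]
    have : (u none + 1) * u (some 1) = u none * u (some 1) + u (some 1) := by ring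
    omega

lemma SFF.mod (hf : SFF f) (hg : SFF g) : SFF (fun v => f v % g v) :=
  (hf.sub (hg.mul (hf.div hg))).congr fun _ => Nat.mod_def _ _

lemma SFF.max (hf : SFF f) (hg : SFF g) : SFF (fun v => max (f v) (g v)) :=
  (SFF.ite (SFD.le hf hg) hg hf).congr fun _ => max_def _ _

lemma SFF.npow (hf : SFF f) (n : ℕ) : SFF (fun v => f v ^ n) := by
  induction n with
  | zero => exact SFF.const 1
  | succ n ih => exact ih.mul hf

lemma SFF.pair (hf : SFF f) (hg : SFF g) : SFF (fun v => Nat.pair (f v) (g v)) :=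
  SFF.ite (SFD.lt hf hg) ((hg.mul hg).add hf) (((hf.mul hf).add hf).add hg)

lemma SFF.sum {ι : Type} (s : Finset ι) {F : ι → (α → ℕ) → ℕ} (hF : ∀ i, SFF (F i)) :
    SFF (fun v => ∑ i ∈ s, F i v) := by
  classical
  induction s using Finset.induction_on with
  | empty => exact SFF.const 0
  | insert a s ha ih =>
    simp_rw [Finset.sum_insert ha]
    exact (hF a).add ih

lemma gcd_spec {a b g x : ℕ} (h1 : a % g = 0) (h2 : b % g = 0) (h3 : a * x % b = g % b) :
    Nat.gcd a b = g := by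
  refine Nat.dvd_antisymm ?_ (Nat.dvd_gcd (Nat.dvd_of_mod_eq_zero h1) (Nat.dvd_of_mod_eq_zero h2))
  have h4 : a * x ≡ g [MOD Nat.gcd a b] := Nat.ModEq.of_dvd (Nat.gcd_dvd_right a b) h3
  exact (h4.dvd_iff dvd_rfl).mp ((Nat.gcd_dvd_left a b).mul_right x)

lemma SFF.gcd (hf : SFF f) (hg : SFF g) : SFF (fun v => Nat.gcd (f v) (g v)) := by
  refine SFF.comp2 (F := fun a b => Nat.gcd a b) ?_ hf hg
  refine SF.congr (SF.or (S := fun u => u (some 1) = 0 ∧ u none = u (some 0))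
    (T := fun u => ∃ x, u (some 0) % u none = 0 ∧ u (some 1) % u none = 0 ∧
      x < u (some 1) / u none ∧ u (some 0) * x % u (some 1) = u none % u (some 1))
    ((SF.eq (SFF.proj _) (SFF.const _)).and (SF.eq (SFF.proj _) (SFF.proj _)))
    (SF.ex1 ((SF.eq ((SFF.proj _).mod (SFF.proj _)) (SFF.const _)).and
      ((SF.eq ((SFF.proj _).mod (SFF.proj _)) (SFF.const _)).and
      ((SF.lt (SFF.proj _) ((SFF.proj _).div (SFF.proj _))).and
      (SF.eq (((SFF.proj _).mul (SFF.proj _)).mod (SFF.proj _))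
        ((SFF.proj _).mod (SFF.proj _)))))) ?_) ?_) fun u => ?_
  · rintro u x x' ⟨a1, a2, a3, a4⟩ ⟨-, -, b3, b4⟩
    have hg := gcd_spec a1 a2 a4
    have h1 : u (some 0) * x ≡ u (some 0) * x' [MOD u (some 1)] := a4.trans b4.symm
    have hb : 0 < u (some 1) := by
      rcases Nat.eq_zero_or_pos (u (some 1)) with h | h
      · rw [h] at a3; simp at a3
      · exact h
    have h2 := Nat.ModEq.cancel_left_div_gcd hb h1
    rw [Nat.gcd_comm, hg] at h2
    exact Nat.ModEq.eq_of_lt_of_lt h2 a3 b3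
  · rintro u ⟨a, -⟩ ⟨x, -, -, b, -⟩
    rw [a] at b; simp at b
  · beta_reduce
    constructor
    · intro h
      rcases Nat.eq_zero_or_pos (u (some 1)) with hb | hb
      · left; rw [hb] at h; exact ⟨hb, by simpa using h.symm⟩
      right
      set a := u (some 0)
      set b := u (some 1)
      rw [← h]
      have hg : 0 < Nat.gcd a b := Nat.gcd_pos_of_pos_right _ hb
      have hq : 0 < b / Nat.gcd a b := Nat.div_pos (Nat.gcd_le_right _ hb) hg
      obtain ⟨x, hx⟩ : ∃ x, a * x ≡ Nat.gcd a b [MOD b] := by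
        rcases (Nat.gcd_le_right a hb).eq_or_lt with h1 | h1
        · exact ⟨0, by rw [h1]; simp [Nat.ModEq]⟩
        · obtain ⟨x, -, hx⟩ := Nat.exists_mul_mod_eq_gcd (n := a) h1
          exact ⟨x, by rw [Nat.ModEq, hx, Nat.mod_eq_of_lt h1]⟩
      refine ⟨x % (b / Nat.gcd a b), Nat.mod_eq_zero_of_dvd (Nat.gcd_dvd_left _ _),
        Nat.mod_eq_zero_of_dvd (Nat.gcd_dvd_right _ _), Nat.mod_lt _ hq, ?_⟩
      refine Nat.ModEq.trans ?_ hx
      have h2 := (Nat.mod_modEq x (b / Nat.gcd a b)).mul_left' (Nat.gcd a b)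
      rw [Nat.mul_div_cancel' (Nat.gcd_dvd_right _ _)] at h2
      have h3 := h2.mul_left (a / Nat.gcd a b)
      rwa [← mul_assoc, ← mul_assoc, Nat.div_mul_cancel (Nat.gcd_dvd_left _ _)] at h3
    · rintro (⟨a, b⟩ | ⟨x, a1, a2, -, a4⟩)
      · rw [a, b]; simp
      · exact gcd_spec a1 a2 a4

end dec

end Vale.Agent.P345
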