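import Vale.Agent.P345.SF

namespace Vale.Agent.P345

variable {α γ : Type}

/-- integer valued single-fold functions -/
def SFZ (f : (α → ℕ) → ℤ) : Prop :=
  ∃ a b : (α → ℕ) → ℕ, SFF a ∧ SFF b ∧ ∀ v, f v = a v - b v

section Z
variable {f g : (α → ℕ) → ℤ} {S : (α → ℕ) → Prop}

lemma SFZ.congr (h : SFZ f) (H : ∀ v, g v = f v) : SFZ g := by
  rwa [show g = f from funext H]

lemma SFZ.cast {a : (α → ℕ) → ℕ} (h : SFF a) : SFZ (fun v => (a v : ℤ)) :=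
  ⟨a, fun _ => 0, h, SFF.const 0, fun _ => by simp⟩

lemma SFZ.const (c : ℤ) : SFZ (fun _ : α → ℕ => c) :=
  ⟨fun _ => c.toNat, fun _ => (-c).toNat, SFF.const _, SFF.const _, fun _ => by simp⟩

lemma SFZ.add (hf : SFZ f) (hg : SFZ g) : SFZ (fun v => f v + g v) := by
  obtain ⟨a, b, ha, hb, h⟩ := hf
  obtain ⟨c, d, hc, hd, h'⟩ := hg
  exact ⟨_, _, ha.add hc, hb.add hd, fun v => by
    beta_reduce; rw [h, h']; push_cast; ring⟩

lemma SFZ.neg (hf : SFZ f) : SFZ (fun v => -f v) := by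
  obtain ⟨a, b, ha, hb, h⟩ := hf
  exact ⟨_, _, hb, ha, fun v => by beta_reduce; rw [h]; ring⟩

lemma SFZ.mul (hf : SFZ f) (hg : SFZ g) : SFZ (fun v => f v * g v) := by
  obtain ⟨a, b, ha, hb, h⟩ := hf
  obtain ⟨c, d, hc, hd, h'⟩ := hg
  exact ⟨_, _, (ha.mul hc).add (hb.mul hd), (ha.mul hd).add (hb.mul hc), fun v => by
    beta_reduce; rw [h, h']; push_cast; ring⟩

lemma SFZ.ite [∀ v, Decidable (S v)] (h : SFD S) (hf : SFZ f) (hg : SFZ g) :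
    SFZ (fun v => if S v then f v else g v) := by
  obtain ⟨a, b, ha, hb, h1⟩ := hf
  obtain ⟨c, d, hc, hd, h2⟩ := hg
  exact ⟨_, _, SFF.ite h ha hc, SFF.ite h hb hd, fun v => by
    beta_reduce; split_ifs; exacts [h1 v, h2 v]⟩

lemma SFZ.toNat (hf : SFZ f) : SFF (fun v => (f v).toNat) := by
  obtain ⟨a, b, ha, hb, h⟩ := hf
  exact (ha.sub hb).congr fun v => by rw [h]; omega

lemma SFZ.natAbs (hf : SFZ f) : SFF (fun v => (f v).natAbs) := by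
  obtain ⟨a, b, ha, hb, h⟩ := hf
  exact ((ha.sub hb).add (hb.sub ha)).congr fun v => by rw [h]; omega

lemma SFD.zeq (hf : SFZ f) (hg : SFZ g) : SFD (fun v => f v = g v) := by
  obtain ⟨a, b, ha, hb, h⟩ := hf
  obtain ⟨c, d, hc, hd, h'⟩ := hg
  exact (SFD.eq (ha.add hd) (hc.add hb)).congr fun v => by rw [h, h']; omega

lemma SFD.zlt (hf : SFZ f) (hg : SFZ g) : SFD (fun v => f v < g v) := by
  obtain ⟨a, b, ha, hb, h⟩ := hf
  obtain ⟨c, d, hc, hd, h'⟩ := hg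
  exact (SFD.lt (ha.add hd) (hc.add hb)).congr fun v => by rw [h, h']; omega

end Z

/-- rational valued single-fold functions -/
def SFQ (f : (α → ℕ) → ℚ) : Prop :=
  ∃ a b : (α → ℕ) → ℤ, SFZ a ∧ SFZ b ∧ ∀ v, b v ≠ 0 ∧ f v = a v / b v

section Q
variable {f g : (α → ℕ) → ℚ} {S : (α → ℕ) → Prop}

lemma SFQ.congr (h : SFQ f) (H : ∀ v, g v = f v) : SFQ g := by
  rwa [show g = f from funext H]

lemma SFQ.cast {a : (α → ℕ) → ℕ} (h : SFF a) : SFQ (fun v => (a v : ℚ)) :=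
  ⟨_, fun _ => 1, SFZ.cast h, SFZ.const 1, fun _ => by simp⟩

lemma SFQ.const (c : ℚ) : SFQ (fun _ : α → ℕ => c) :=
  ⟨fun _ => c.num, fun _ => c.den, SFZ.const _, SFZ.const _, fun _ =>
    ⟨by simp, by simp [Rat.num_div_den]⟩⟩

lemma SFQ.add (hf : SFQ f) (hg : SFQ g) : SFQ (fun v => f v + g v) := by
  obtain ⟨a, b, ha, hb, h⟩ := hf
  obtain ⟨c, d, hc, hd, h'⟩ := hg
  refine ⟨_, _, (ha.mul hd).add (hc.mul hb), hb.mul hd, fun v =>
    ⟨mul_ne_zero (h v).1 (h' v).1, ?_⟩⟩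
  have h1 : (b v : ℚ) ≠ 0 := by exact_mod_cast (h v).1
  have h2 : (d v : ℚ) ≠ 0 := by exact_mod_cast (h' v).1
  beta_reduce
  rw [(h v).2, (h' v).2]; push_cast; field_simp

lemma SFQ.neg (hf : SFQ f) : SFQ (fun v => -f v) := by
  obtain ⟨a, b, ha, hb, h⟩ := hf
  exact ⟨_, _, ha.neg, hb, fun v => ⟨(h v).1, by
    beta_reduce; rw [(h v).2]; push_cast; ring⟩⟩

lemma SFQ.sub (hf : SFQ f) (hg : SFQ g) : SFQ (fun v => f v - g v) :=
  (hf.add hg.neg).congr fun _ => sub_eq_add_neg _ _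

lemma SFQ.mul (hf : SFQ f) (hg : SFQ g) : SFQ (fun v => f v * g v) := by
  obtain ⟨a, b, ha, hb, h⟩ := hf
  obtain ⟨c, d, hc, hd, h'⟩ := hg
  refine ⟨_, _, ha.mul hc, hb.mul hd, fun v => ⟨mul_ne_zero (h v).1 (h' v).1, ?_⟩⟩
  beta_reduce
  rw [(h v).2, (h' v).2]; push_cast; ring

lemma SFQ.inv (hf : SFQ f) : SFQ (fun v => (f v)⁻¹) := by
  obtain ⟨a, b, ha, hb, h⟩ := hf
  have hz := SFD.zeq ha (SFZ.const 0)
  refine ⟨_, _, SFZ.ite hz (SFZ.const 0) hb, SFZ.ite hz (SFZ.const 1) ha, fun v => ?_⟩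
  beta_reduce
  rw [(h v).2]
  split_ifs with h1
  · simp [h1]
  · exact ⟨h1, by simp⟩

lemma SFQ.div (hf : SFQ f) (hg : SFQ g) : SFQ (fun v => f v / g v) :=
  (hf.mul hg.inv).congr fun _ => div_eq_mul_inv _ _

lemma SFQ.npow (hf : SFQ f) (n : ℕ) : SFQ (fun v => f v ^ n) := by
  induction n with
  | zero => exact (SFQ.const 1).congr fun _ => pow_zero _
  | succ n ih => exact (ih.mul hf).congr fun _ => pow_succ _ _

lemma SFQ.ite [∀ v, Decidable (S v)] (h : SFD S) (hf : SFQ f) (hg : SFQ g) :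
    SFQ (fun v => if S v then f v else g v) := by
  obtain ⟨a, b, ha, hb, h1⟩ := hf
  obtain ⟨c, d, hc, hd, h2⟩ := hg
  exact ⟨_, _, SFZ.ite h ha hc, SFZ.ite h hb hd, fun v => by
    beta_reduce; split_ifs; exacts [h1 v, h2 v]⟩

lemma SFD.qeq (hf : SFQ f) (hg : SFQ g) : SFD (fun v => f v = g v) := by
  obtain ⟨a, b, ha, hb, h⟩ := hf
  obtain ⟨c, d, hc, hd, h'⟩ := hg
  refine (SFD.zeq (ha.mul hd) (hc.mul hb)).congr fun v => ?_
  have h1 : (b v : ℚ) ≠ 0 := by exact_mod_cast (h v).1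
  have h2 : (d v : ℚ) ≠ 0 := by exact_mod_cast (h' v).1
  rw [(h v).2, (h' v).2, div_eq_div_iff h1 h2]
  exact_mod_cast Iff.rfl

lemma num_den_aux {q : ℚ} {a b : ℤ} (hb : b ≠ 0) (h : q = a / b) :
    q.den = b.natAbs / Nat.gcd a.natAbs b.natAbs ∧
    q.num.natAbs = a.natAbs / Nat.gcd a.natAbs b.natAbs ∧ (q.num < 0 ↔ a * b < 0) := by
  obtain ⟨c, h1, h2⟩ := Rat.num_den_mk hb (show q = Rat.divInt a b by rw [h, Rat.divInt_eq_div])
  have hc : c ≠ 0 := by rintro rfl; simp at h2; exact hb h2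
  have hc' : 0 < c.natAbs := Int.natAbs_pos.mpr hc
  have hg : Nat.gcd a.natAbs b.natAbs = c.natAbs := by
    rw [h1, h2, Int.natAbs_mul, Int.natAbs_mul, Nat.gcd_mul_left, Int.natAbs_natCast,
      q.reduced.gcd_eq_one, mul_one]
  rw [hg]
  refine ⟨?_, ?_, ?_⟩
  · rw [h2, Int.natAbs_mul, Nat.mul_div_cancel_left _ hc', Int.natAbs_natCast]
  · rw [h1, Int.natAbs_mul, Nat.mul_div_cancel_left _ hc']
  · rw [h1, h2, show c * q.num * (c * q.den) = q.num * (c * c * q.den) by ring]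
    have : (0 : ℤ) < c * c * q.den := mul_pos (mul_self_pos.mpr hc) (by exact_mod_cast q.den_pos)
    constructor
    · intro h3; exact mul_neg_of_neg_of_pos h3 this
    · intro h3; by_contra h4; exact absurd h3 (not_lt.mpr (mul_nonneg (not_lt.mp h4) this.le))

lemma SFQ.den (hf : SFQ f) : SFF (fun v => (f v).den) := by
  obtain ⟨a, b, ha, hb, h⟩ := hf
  exact (hb.natAbs.div (ha.natAbs.gcd hb.natAbs)).congr fun v =>
    (num_den_aux (h v).1 (h v).2).1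

lemma SFQ.num (hf : SFQ f) : SFZ (fun v => (f v).num) := by
  obtain ⟨a, b, ha, hb, h⟩ := hf
  have h1 := SFZ.cast (ha.natAbs.div (ha.natAbs.gcd hb.natAbs))
  refine (SFZ.ite (SFD.zlt (ha.mul hb) (SFZ.const 0)) h1.neg h1).congr fun v => ?_
  obtain ⟨-, h2, h3⟩ := num_den_aux (h v).1 (h v).2
  rw [← h2]
  simp only [← h3]
  split_ifs <;> omega

end Q

end Vale.Agent.P345
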